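/-
P235, helper37.  Tree decompositions whose tree is a union of paths attached to paths.
Definitions only.
-/
import Vale.Agent.P235.H536.PlaneDefs

namespace Vale.Agent.P235.H37T

/-- tree decomposition of `G` with bags `B 0, …, B N` (of any size); the parent of the bag `j > 0`
is the bag `p j`, `p j < j`; every vertex has a bag `i` such that each other bag which contains it
has a parent which contains it.  The bags have levels `lam j ≤ q`; either the bag `j` continues the
path of the bag `j - 1` (same level), or it starts a path which hangs on a bag of smaller level -/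
structure TreeDec {V : Type} (G : SimpleGraph V) (N q : ℕ) (p lam : ℕ → ℕ) (B : ℕ → Set V) :
    Prop where
  vertex : ∀ v, ∃ i, i ≤ N ∧ v ∈ B i ∧ ∀ j, j ≤ N → v ∈ B j → j ≠ i → 0 < j ∧ v ∈ B (p j)
  edge : ∀ u v, G.Adj u v → ∃ i, i ≤ N ∧ u ∈ B i ∧ v ∈ B i
  level : ∀ j, j ≤ N → lam j ≤ q
  parent : ∀ j, 0 < j → j ≤ N →
    p j < j ∧ (p j = j - 1 ∧ lam j = lam (j - 1) ∨ lam (p j) < lam j)

/-- a tree decomposition as above such that all bags are isometric to subsets of the real line -/
def LineTree {V : Type} (G : SimpleGraph V) (d : V → V → ℝ) (N q : ℕ) : Prop :=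
  ∃ (B : ℕ → Set V) (p lam : ℕ → ℕ), TreeDec G N q p lam B ∧
    ∀ i, i ≤ N → ∃ x : V → ℝ, ∀ u ∈ B i, ∀ v ∈ B i, d u v = |x u - x v|

/-- a tree decomposition as above such that all bags are isometric to subsets of the real line, or
one function `h` has slopes in `[1/D, 1]` in all bags -/
def TreeBags {V : Type} (G : SimpleGraph V) (d : V → V → ℝ) (D : ℝ) (N q : ℕ) : Prop :=
  ∃ (B : ℕ → Set V) (p lam : ℕ → ℕ), TreeDec G N q p lam B ∧
    ((∀ i, i ≤ N → ∃ x : V → ℝ, ∀ u ∈ B i, ∀ v ∈ B i, d u v = |x u - x v|) ∨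
      ∃ h : V → ℝ, ∀ i, i ≤ N → ∀ u ∈ B i, ∀ v ∈ B i,
        |h u - h v| ≤ d u v ∧ d u v ≤ D * |h u - h v|)

end Vale.Agent.P235.H37T
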