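/-
P235 (helper37, after helper551): the classes of `Swept.lean` with tree decompositions.
Definitions only.
-/
import Vale.Agent.P235.R2.H37T.Defs
import Vale.Agent.P235.R2.RED.Swept

namespace Vale.Agent.P235.SwpT

open Vale.Agent.P235.H37T

/-- a tight piece: a tree decomposition (paths attached to paths, levels at most `q`) into bags
isometric to subsets of the line; or plane, and for two vertices `s`, `t` of one face every edge
lies on a geodesic from `s` to `t`; or isometric to a subset of `L₁`; or of treewidth at most `3` -/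
def Tight (n q : ℕ) (V : Type) (G : SimpleGraph V) (d : V → V → ℝ) : Prop :=
  (∃ N, N ≤ n ∧ LineTree G d N q) ∨
  (Nat.card V ≤ n ∧ ∃ (σ : Equiv.Perm G.Dart) (f : G.Dart) (s t : V), PlaneMap G σ ∧
    s ∈ onFace σ f ∧ t ∈ onFace σ f ∧ ∀ u v, G.Adj u v →
      d s u + d u v + d v t = d s t ∨ d s v + d v u + d u t = d s t) ∨
  EmbedsL1 d 1 ∨ TreewidthLE G 3

/-- a piece: an edge sum of tight pieces, or a graph with lengths in `TreeBags` or `TwoEnds` -/
def Piece (n q : ℕ) (D : ℝ) (V : Type) (G : SimpleGraph V) (d : V → V → ℝ) : Prop :=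
  Swp.EdgeSum (Tight n q) G d ∨ ∃ ℓ : Sym2 V → ℝ, (∀ u v, G.Adj u v → ℓ s(u, v) = d u v) ∧
    ((∃ N, N ≤ n ∧ TreeBags G (pathDist G ℓ) D N q) ∨
      Nat.card V ≤ n ∧ Swp.TwoEnds G ℓ D Set.univ)

end Vale.Agent.P235.SwpT
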