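/-
P235, helper37.  Words on trees, part 1: rooted trees made of paths which are attached to paths.
-/
import Vale.Agent.P235.R2.H168.Word

namespace Vale.Agent.P235.H37T

open Equiv Finset VPBruhat VPRed

/-- The indices `0, …, N` form a rooted tree with parent `p`: for `j > 0` either `p j = j - 1` and
`j` lies on the same path as `j - 1` (same level `lam`), or `j` starts a new path which is attached
at `p j < j` and has a larger level.  All levels are at most `q`. -/
structure Paths (N q : ℕ) (p lam : ℕ → ℕ) : Prop where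
  le : ∀ j, j ≤ N → lam j ≤ q
  step : ∀ j, 0 < j → j ≤ N →
    p j < j ∧ ((p j = j - 1 ∧ lam j = lam (j - 1)) ∨ lam (p j) < lam j)

variable {N q : ℕ} {p lam : ℕ → ℕ} {m : ℕ}

/-- the nearest index above `i` (or `i` itself) of level at most `L` -/
def anc (p lam : ℕ → ℕ) (L : ℕ) (i : ℕ) : ℕ :=
  if lam i ≤ L then i else if _h : p i < i then anc p lam L (p i) else i
termination_by i

/-- the first index of the path of `i` -/
def top (p lam : ℕ → ℕ) (i : ℕ) : ℕ :=
  if _h : p i < i ∧ lam (p i) = lam i then top p lam (p i) else i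
termination_by i

/-- positions of the strands at the index `i` -/
def P (p : ℕ → ℕ) (c : ℕ → Perm (Fin m)) (i : ℕ) : Perm (Fin m) :=
  if _h : p i < i then c (i - 1) * P p c (p i) else 1
termination_by i

theorem P_zero (c : ℕ → Perm (Fin m)) : P p c 0 = 1 := by
  rw [P, dif_neg (by omega)]

theorem P_pos (hp : Paths N q p lam) (c : ℕ → Perm (Fin m)) {i : ℕ} (h0 : 0 < i) (hi : i ≤ N) :
    P p c i = c (i - 1) * P p c (p i) := by
  conv_lhs => rw [P, dif_pos (hp.step i h0 hi).1]

theorem anc_self {L i : ℕ} (h : lam i ≤ L) : anc p lam L i = i := by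
  rw [anc, if_pos h]

theorem anc_up (hp : Paths N q p lam) {L i : ℕ} (h0 : 0 < i) (hi : i ≤ N) (h : L < lam i) :
    anc p lam L i = anc p lam L (p i) := by
  conv_lhs => rw [anc, if_neg (by omega), dif_pos (hp.step i h0 hi).1]

theorem anc_zero (L : ℕ) : anc p lam L 0 = 0 := by
  rw [anc]
  split_ifs with h h'
  · rfl
  · omega
  · rfl

theorem top_zero : top p lam 0 = 0 := by
  rw [top, dif_neg (by omega)]

theorem top_same (hp : Paths N q p lam) {i : ℕ} (h0 : 0 < i) (hi : i ≤ N) (h1 : p i = i - 1)
    (h2 : lam i = lam (i - 1)) : top p lam i = top p lam (i - 1) := by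
  conv_lhs => rw [top, dif_pos ⟨(hp.step i h0 hi).1, by rw [h1, h2]⟩]
  rw [h1]

theorem top_new {i : ℕ} (h : lam (p i) < lam i) : top p lam i = i := by
  rw [top, dif_neg (by omega)]

theorem top_le (i : ℕ) : top p lam i ≤ i := by
  induction i using Nat.strong_induction_on with
  | _ i ih =>
    rw [top]
    split_ifs with h
    · exact (ih _ h.1).trans h.1.le
    · exact le_rfl

theorem lam_top (i : ℕ) : lam (top p lam i) = lam i := by
  induction i using Nat.strong_induction_on with
  | _ i ih =>
    rw [top]
    split_ifs with h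
    · rw [ih _ h.1, h.2]
    · rfl

theorem anc_le (L i : ℕ) : anc p lam L i ≤ i := by
  induction i using Nat.strong_induction_on with
  | _ i ih =>
    rw [anc]
    split_ifs with h h'
    · exact le_rfl
    · exact (ih _ h').trans h'.le
    · exact le_rfl

/-- the window of `i`: the part of its path from the first step to `i` -/
def W (p lam : ℕ → ℕ) (c : ℕ → Perm (Fin m)) (i : ℕ) : Perm (Fin m) :=
  wprod c (top p lam i - 1) i

theorem W_zero (c : ℕ → Perm (Fin m)) : W p lam c 0 = 1 := by
  unfold W; rw [top_zero]; exact wprod_self c 0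

theorem W_same (hp : Paths N q p lam) (c : ℕ → Perm (Fin m)) {i : ℕ} (h0 : 0 < i) (hi : i ≤ N)
    (h1 : p i = i - 1) (h2 : lam i = lam (i - 1)) :
    W p lam c i = c (i - 1) * W p lam c (i - 1) := by
  unfold W
  rw [top_same hp h0 hi h1 h2]
  have h3 : top p lam (i - 1) ≤ i - 1 := top_le _
  have e : i = (i - 1) + 1 := by omega
  conv_lhs => rw [e]
  rw [Nat.add_sub_cancel]
  exact wprod_succ c (by omega)

theorem W_new (c : ℕ → Perm (Fin m)) {i : ℕ} (h0 : 0 < i) (h : lam (p i) < lam i) :
    W p lam c i = c (i - 1) := by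
  unfold W
  rw [top_new h]
  have e : i = (i - 1) + 1 := by omega
  conv_lhs => rw [e]
  rw [Nat.add_sub_cancel, wprod_succ c le_rfl, wprod_self, mul_one]

/-- the window of level `L` above `i` -/
def Wn (p lam : ℕ → ℕ) (L : ℕ) (c : ℕ → Perm (Fin m)) (i : ℕ) : Perm (Fin m) :=
  if lam (anc p lam L i) = L then W p lam c (anc p lam L i) else 1

/-- positions: peel the path of `i` -/
theorem P_peel (hp : Paths N q p lam) (c : ℕ → Perm (Fin m)) (L : ℕ) :
    ∀ i, i ≤ N → lam i = L + 1 → P p c i = W p lam c i * P p c (anc p lam L i) := by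
  intro i
  induction i using Nat.strong_induction_on with
  | _ i ih =>
    intro hi hl
    rcases Nat.eq_zero_or_pos i with rfl | h0
    · rw [anc_zero, W_zero, P_zero, mul_one]
    · rw [P_pos hp c h0 hi, anc_up hp h0 hi (by omega)]
      rcases (hp.step i h0 hi).2 with ⟨h1, h2⟩ | h
      · rw [W_same hp c h0 hi h1 h2, h1, ih (i - 1) (by omega) (by omega) (by omega), mul_assoc]
      · rw [W_new c h0 h, anc_self (by omega)]

theorem P_low (hp : Paths N q p lam) (c : ℕ → Perm (Fin m)) :
    ∀ i, i ≤ N → lam i = 0 → P p c i = W p lam c i := by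
  intro i
  induction i using Nat.strong_induction_on with
  | _ i ih =>
    intro hi hl
    rcases Nat.eq_zero_or_pos i with rfl | h0
    · rw [W_zero, P_zero]
    · rw [P_pos hp c h0 hi]
      rcases (hp.step i h0 hi).2 with ⟨h1, h2⟩ | h
      · rw [W_same hp c h0 hi h1 h2, h1, ih (i - 1) (by omega) (by omega) (by omega)]
      · omega

/-- an index of level larger than `L` reached by `anc` is `0` -/
theorem anc_spec (hp : Paths N q p lam) (L : ℕ) :
    ∀ i, i ≤ N → lam (anc p lam L i) ≤ L ∨ anc p lam L i = 0 := by
  intro i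
  induction i using Nat.strong_induction_on with
  | _ i ih =>
    intro hi
    rcases Nat.eq_zero_or_pos i with rfl | h0
    · right; exact anc_zero L
    · rcases Nat.lt_or_ge L (lam i) with h | h
      · rw [anc_up hp h0 hi h]
        have h1 := (hp.step i h0 hi).1
        exact ih (p i) h1 (by omega)
      · left; rw [anc_self h]; exact h

theorem anc_anc (hp : Paths N q p lam) (L : ℕ) :
    ∀ i, i ≤ N → anc p lam L (anc p lam (L + 1) i) = anc p lam L i := by
  intro i
  induction i using Nat.strong_induction_on with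
  | _ i ih =>
    intro hi
    rcases Nat.eq_zero_or_pos i with rfl | h0
    · rw [anc_zero]
    · rcases Nat.lt_or_ge (L + 1) (lam i) with h | h
      · have h1 := (hp.step i h0 hi).1
        rw [anc_up hp h0 hi h, anc_up hp h0 hi (by omega : L < lam i)]
        exact ih (p i) h1 (by omega)
      · rw [anc_self h]

/-- one level of the positions -/
theorem P_level (hp : Paths N q p lam) (c : ℕ → Perm (Fin m)) (L : ℕ) {i : ℕ} (hi : i ≤ N) :
    P p c (anc p lam (L + 1) i) = Wn p lam (L + 1) c i * P p c (anc p lam L i) := by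
  unfold Wn
  have ha : anc p lam (L + 1) i ≤ N := (anc_le _ _).trans hi
  rw [← anc_anc hp L i hi]
  by_cases h : lam (anc p lam (L + 1) i) = L + 1
  · rw [if_pos h]
    exact P_peel hp c L _ ha h
  · rw [if_neg h, one_mul]
    rcases anc_spec hp (L + 1) i hi with h1 | h1
    · rw [anc_self (L := L) (i := anc p lam (L + 1) i) (by omega)]
    · rw [h1, anc_zero]

theorem P_level_zero (hp : Paths N q p lam) (c : ℕ → Perm (Fin m)) {i : ℕ} (hi : i ≤ N) :
    P p c (anc p lam 0 i) = Wn p lam 0 c i := by
  unfold Wn
  have ha : anc p lam 0 i ≤ N := (anc_le _ _).trans hi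
  by_cases h : lam (anc p lam 0 i) = 0
  · rw [if_pos h]
    exact P_low hp c _ ha h
  · rw [if_neg h]
    rcases anc_spec hp 0 i hi with h1 | h1
    · omega
    · rw [h1, P_zero]

/-- two indices of one path have the same ancestor of smaller level -/
theorem anc_top (hp : Paths N q p lam) (L : ℕ) :
    ∀ i, i ≤ N → L < lam i → anc p lam L i = anc p lam L (top p lam i) := by
  intro i
  induction i using Nat.strong_induction_on with
  | _ i ih =>
    intro hi hl
    rcases Nat.eq_zero_or_pos i with rfl | h0
    · rw [top_zero]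
    · rcases (hp.step i h0 hi).2 with ⟨h1, h2⟩ | h
      · rw [anc_up hp h0 hi hl, top_same hp h0 hi h1 h2, h1]
        exact ih (i - 1) (by omega) (by omega) (by omega)
      · rw [top_new h]

/-! ### flux -/

theorem flux_one (a : ℕ) : flux a (1 : Perm (Fin m)) = 0 := by
  unfold flux
  rw [Finset.card_eq_zero, Finset.filter_eq_empty_iff]
  intro x _ hx
  have h2 : a ≤ (x : ℕ) := hx.2
  omega

theorem flux_mul_le (a : ℕ) (v u : Perm (Fin m)) : flux a (v * u) ≤ flux a v + flux a u := by
  classical
  have h : flux a v = (Finset.univ.filter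
      (fun x : Fin m => ((u x : Fin m) : ℕ) < a ∧ a ≤ (v (u x) : ℕ))).card := by
    unfold flux
    refine (Finset.card_bij (fun x _ => u x) ?_ ?_ ?_).symm
    · intro x hx
      rw [Finset.mem_filter] at hx ⊢
      exact ⟨Finset.mem_univ _, hx.2⟩
    · intro x _ y _ h; exact u.injective h
    · intro y hy
      rw [Finset.mem_filter] at hy
      refine ⟨u⁻¹ y, ?_, by simp⟩
      rw [Finset.mem_filter]
      exact ⟨Finset.mem_univ _, by simpa using hy.2⟩
  rw [h]
  unfold flux
  refine le_trans (Finset.card_le_card ?_) (Finset.card_union_le _ _)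
  intro x hx
  rw [Finset.mem_filter] at hx
  rw [Finset.mem_union, Finset.mem_filter, Finset.mem_filter]
  have h1 := hx.2.1
  have h2 : a ≤ (v (u x) : ℕ) := hx.2.2
  by_cases h3 : ((u x : Fin m) : ℕ) < a
  · exact Or.inl ⟨Finset.mem_univ _, h3, h2⟩
  · exact Or.inr ⟨Finset.mem_univ _, h1, not_lt.1 h3⟩

/-- the flux of the inverse is the same -/
theorem flux_inv (a : ℕ) (v : Perm (Fin m)) : flux a v⁻¹ = flux a v := by
  classical
  have h0 : flux a v⁻¹ =
      (Finset.univ.filter (fun x : Fin m => a ≤ (x : ℕ) ∧ (v x : ℕ) < a)).card := by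
    unfold flux
    refine Finset.card_bij (fun x _ => v⁻¹ x) ?_ ?_ ?_
    · intro x hx
      rw [Finset.mem_filter] at hx ⊢
      exact ⟨Finset.mem_univ _, hx.2.2, by simpa using hx.2.1⟩
    · intro x _ y _ h
      exact v⁻¹.injective h
    · intro y hy
      rw [Finset.mem_filter] at hy
      refine ⟨v y, ?_, by simp⟩
      rw [Finset.mem_filter]
      exact ⟨Finset.mem_univ _, hy.2.2, by simpa using hy.2.1⟩
  rw [h0]
  unfold flux
  have h1 := card_preimage_lt v (fun x => (x : ℕ) < a)
  have h2 : (univ.filter (fun x : Fin m => ((v x : Fin m) : ℕ) < a)).card =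
      (univ.filter (fun x : Fin m => (x : ℕ) < a ∧ ((v x : Fin m) : ℕ) < a)).card +
      (univ.filter (fun x : Fin m => a ≤ (x : ℕ) ∧ ((v x : Fin m) : ℕ) < a)).card := by
    rw [← Finset.card_union_of_disjoint]
    · congr 1
      ext x
      simp only [mem_filter, mem_univ, true_and, mem_union]
      omega
    · rw [Finset.disjoint_left]
      intro x hx hx'
      simp only [mem_filter, mem_univ, true_and] at hx hx'
      omega
  have h3 : (univ.filter (fun x : Fin m => (x : ℕ) < a)).card =
      (univ.filter (fun x : Fin m => (x : ℕ) < a ∧ ((v x : Fin m) : ℕ) < a)).card +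
      (univ.filter (fun x : Fin m => (x : ℕ) < a ∧ a ≤ ((v x : Fin m) : ℕ))).card := by
    rw [← Finset.card_union_of_disjoint]
    · congr 1
      ext x
      simp only [mem_filter, mem_univ, true_and, mem_union]
      omega
    · rw [Finset.disjoint_left]
      intro x hx hx'
      simp only [mem_filter, mem_univ, true_and] at hx hx'
      omega
  omega

/-- the flux cost of the level `L` between `i` and `k` -/
noncomputable def X (p lam : ℕ → ℕ) (L a : ℕ) (c : ℕ → Perm (Fin m)) (i k : ℕ) : ℝ :=
  if top p lam (anc p lam L k) = top p lam (anc p lam L i) then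
    (flux a (Wn p lam L c k * (Wn p lam L c i)⁻¹) : ℝ)
  else (flux a (Wn p lam L c k) : ℝ) + flux a (Wn p lam L c i)

theorem X_nonneg (L a : ℕ) (c : ℕ → Perm (Fin m)) (i k : ℕ) : 0 ≤ X p lam L a c i k := by
  unfold X; split_ifs <;> positivity

/-- **the flux between two indices is at most the sum of the costs of the levels** -/
theorem flux_le (hp : Paths N q p lam) (a : ℕ) (c : ℕ → Perm (Fin m)) {i k : ℕ} (hi : i ≤ N)
    (hk : k ≤ N) : ∀ L, (flux a (P p c (anc p lam L k) * (P p c (anc p lam L i))⁻¹) : ℝ) ≤
      ∑ l ∈ range (L + 1), X p lam l a c i k := by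
  intro L
  induction L with
  | zero =>
    rw [P_level_zero hp c hi, P_level_zero hp c hk, zero_add, Finset.sum_range_one]
    unfold X
    split_ifs with h
    · exact le_rfl
    · have h1 := flux_mul_le a (Wn p lam 0 c k) (Wn p lam 0 c i)⁻¹
      rw [flux_inv] at h1
      exact_mod_cast h1
  | succ L ih =>
    rw [Finset.sum_range_succ]
    have hX : 0 ≤ X p lam (L + 1) a c i k := X_nonneg _ _ _ _ _
    rw [P_level hp c L hi, P_level hp c L hk]
    set Wk := Wn p lam (L + 1) c k with hWk
    set Wi := Wn p lam (L + 1) c i with hWi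
    set Pk := P p c (anc p lam L k) with hPk
    set Pi := P p c (anc p lam L i) with hPi
    have e : Wk * Pk * (Wi * Pi)⁻¹ = Wk * ((Pk * Pi⁻¹) * Wi⁻¹) := by group
    by_cases hs : top p lam (anc p lam (L + 1) k) = top p lam (anc p lam (L + 1) i)
    · have hlam : lam (anc p lam (L + 1) k) = lam (anc p lam (L + 1) i) := by
        have h1 := lam_top (p := p) (lam := lam) (anc p lam (L + 1) k)
        have h2 := lam_top (p := p) (lam := lam) (anc p lam (L + 1) i)
        rw [← h1, ← h2, hs]
      have hXe : X p lam (L + 1) a c i k = (flux a (Wk * Wi⁻¹) : ℝ) := by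
        unfold X; rw [if_pos hs]
      by_cases hl : lam (anc p lam (L + 1) k) = L + 1
      · have h1 : anc p lam L k = anc p lam L i := by
          rw [← anc_anc hp L k hk, ← anc_anc hp L i hi,
            anc_top hp L _ ((anc_le _ _).trans hk) (by omega),
            anc_top hp L _ ((anc_le _ _).trans hi) (by omega), hs]
        have h2 : Pk = Pi := by rw [hPk, hPi, h1]
        rw [e, h2, mul_inv_cancel, one_mul, ← hXe]
        have := Finset.sum_nonneg (fun l (_ : l ∈ range (L + 1)) =>
          X_nonneg (p := p) (lam := lam) l a c i k)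
        linarith
      · have h1 : Wk = 1 := by rw [hWk]; unfold Wn; rw [if_neg hl]
        have h2 : Wi = 1 := by rw [hWi]; unfold Wn; rw [if_neg (by omega)]
        rw [e, h1, h2, inv_one, mul_one, one_mul]
        linarith
    · have hXe : X p lam (L + 1) a c i k = (flux a Wk : ℝ) + flux a Wi := by
        unfold X; rw [if_neg hs]
      rw [e, hXe]
      have h1 := flux_mul_le a Wk ((Pk * Pi⁻¹) * Wi⁻¹)
      have h2 := flux_mul_le a (Pk * Pi⁻¹) Wi⁻¹
      rw [flux_inv] at h2
      have h3 : (flux a (Wk * ((Pk * Pi⁻¹) * Wi⁻¹)) : ℝ) ≤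
          flux a Wk + (flux a (Pk * Pi⁻¹) + flux a Wi) := by exact_mod_cast h1.trans (by omega)
      linarith

theorem flux_le_sum (hp : Paths N q p lam) (a : ℕ) (c : ℕ → Perm (Fin m)) {i k : ℕ} (hi : i ≤ N)
    (hk : k ≤ N) : (flux a (P p c k * (P p c i)⁻¹) : ℝ) ≤
      ∑ l ∈ range (q + 1), X p lam l a c i k := by
  have h := flux_le hp a c hi hk q
  rwa [anc_self (hp.le i hi), anc_self (hp.le k hk)] at h

/-! ### one level is switched on -/

open Classical in
/-- the configuration `c` on the paths of level `L` with `s = true`, trivial elsewhere -/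
noncomputable def on (p lam : ℕ → ℕ) (L : ℕ) (s : ℕ → Bool) (c : ℕ → Perm (Fin m)) (t : ℕ) :
    Perm (Fin m) :=
  if lam (t + 1) = L ∧ s (top p lam (t + 1)) = true then c t else 1

theorem P_on (hp : Paths N q p lam) (L : ℕ) (s : ℕ → Bool) (c : ℕ → Perm (Fin m)) :
    ∀ i, i ≤ N → P p (on p lam L s c) i =
      if s (top p lam (anc p lam L i)) = true then Wn p lam L c i else 1 := by
  intro i
  induction i using Nat.strong_induction_on with
  | _ i ih =>
    intro hi
    rcases Nat.eq_zero_or_pos i with rfl | h0
    · rw [P_zero]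
      unfold Wn
      rw [anc_zero, W_zero]
      simp
    · have hstep := hp.step i h0 hi
      have hpi : p i ≤ N := by omega
      rw [P_pos hp _ h0 hi, ih (p i) hstep.1 hpi]
      have e : i - 1 + 1 = i := by omega
      have hon : on p lam L s c (i - 1) =
          if lam i = L ∧ s (top p lam i) = true then c (i - 1) else 1 := by
        unfold on; rw [e]
      rw [hon]
      rcases lt_trichotomy (lam i) L with h | h | h
      · -- smaller level
        have h1 : lam (p i) < L := by
          rcases hstep.2 with ⟨h1, h2⟩ | h1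
          · rw [h1]; omega
          · omega
        have h2 : Wn p lam L c i = 1 := by
          unfold Wn; rw [anc_self h.le, if_neg (by omega)]
        have h3 : Wn p lam L c (p i) = 1 := by
          unfold Wn; rw [anc_self h1.le, if_neg (by omega)]
        rw [h2, h3, if_neg (fun h' => by omega), one_mul]
        simp
      · rw [anc_self h.le]
        have hW : Wn p lam L c i = W p lam c i := by
          unfold Wn; rw [anc_self h.le, if_pos h]
        rw [hW]
        rcases hstep.2 with ⟨h1, h2⟩ | h1
        · have h3 : lam (p i) = L := by rw [h1]; omega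
          have h4 : Wn p lam L c (p i) = W p lam c (i - 1) := by
            unfold Wn; rw [anc_self h3.le, if_pos h3, h1]
          rw [h4, anc_self h3.le, W_same hp c h0 hi h1 h2, top_same hp h0 hi h1 h2, h1]
          by_cases hs : s (top p lam (i - 1)) = true
          · simp [hs, h]
          · simp [hs]
        · have h3 : Wn p lam L c (p i) = 1 := by
            unfold Wn; rw [anc_self (by omega), if_neg (by omega)]
          rw [h3, W_new c h0 h1]
          by_cases hs : s (top p lam i) = true
          · simp [hs, h]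
          · simp [hs]
      · rw [if_neg (fun h' => by omega), one_mul]
        have h1 : Wn p lam L c i = Wn p lam L c (p i) := by
          unfold Wn; rw [anc_up hp h0 hi h]
        rw [h1, anc_up hp h0 hi h]

end Vale.Agent.P235.H37T
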