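/-
P235, helper37.  Words on trees, part 2: one level of paths is switched on at random.
-/
import Vale.Agent.P235.R2.H37T.Tree

namespace Vale.Agent.P235.H37T

open Equiv Finset VPBruhat VPRed

variable {N q : ℕ} {p lam : ℕ → ℕ} {m : ℕ}

/-! ### coins -/

/-- toss the coin `t` -/
def flip {n : ℕ} (t : Fin n) : (Fin n → Bool) ≃ (Fin n → Bool) where
  toFun s := Function.update s t (!s t)
  invFun s := Function.update s t (!s t)
  left_inv s := by simp
  right_inv s := by simp

theorem flip_self {n : ℕ} (t : Fin n) (s : Fin n → Bool) : flip t s t = !s t := by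
  show Function.update s t (!s t) t = _
  simp

theorem flip_ne {n : ℕ} {t t' : Fin n} (h : t' ≠ t) (s : Fin n → Bool) : flip t s t' = s t' := by
  show Function.update s t (!s t) t' = _
  rw [Function.update_of_ne h]

theorem coin1 {n : ℕ} (t : Fin n) (F : Bool → ℝ) :
    2 * ∑ s : Fin n → Bool, F (s t) = 2 ^ n * (F true + F false) := by
  have h1 : ∑ s : Fin n → Bool, F (s t) = ∑ s : Fin n → Bool, F (!s t) := by
    rw [← Equiv.sum_comp (flip t) (fun s => F (s t))]
    refine Finset.sum_congr rfl fun s _ => ?_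
    rw [flip_self]
  have h2 : ∑ s : Fin n → Bool, F (s t) + ∑ s : Fin n → Bool, F (!s t) =
      ∑ s : Fin n → Bool, (F true + F false) := by
    rw [← Finset.sum_add_distrib]
    refine Finset.sum_congr rfl fun s _ => ?_
    cases s t <;> simp [add_comm]
  have h3 : ∑ s : Fin n → Bool, (F true + F false) = 2 ^ n * (F true + F false) := by
    rw [Finset.sum_const, nsmul_eq_mul, Finset.card_univ, Fintype.card_fun, Fintype.card_bool,
      Fintype.card_fin]
    push_cast; ring
  linarith

theorem coin2 {n : ℕ} {t t' : Fin n} (h : t ≠ t') (F : Bool → Bool → ℝ) :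
    4 * ∑ s : Fin n → Bool, F (s t) (s t') =
      2 ^ n * (F true true + F true false + F false true + F false false) := by
  have h1 : ∑ s : Fin n → Bool, F (s t) (s t') = ∑ s : Fin n → Bool, F (!s t) (s t') := by
    rw [← Equiv.sum_comp (flip t) (fun s => F (s t) (s t'))]
    refine Finset.sum_congr rfl fun s _ => ?_
    rw [flip_self, flip_ne h.symm]
  have h2 : ∑ s : Fin n → Bool, F (s t) (s t') = ∑ s : Fin n → Bool, F (s t) (!s t') := by
    rw [← Equiv.sum_comp (flip t') (fun s => F (s t) (s t'))]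
    refine Finset.sum_congr rfl fun s _ => ?_
    rw [flip_self, flip_ne h]
  have h3 : ∑ s : Fin n → Bool, F (!s t) (s t') = ∑ s : Fin n → Bool, F (!s t) (!s t') := by
    rw [← Equiv.sum_comp (flip t') (fun s => F (!s t) (s t'))]
    refine Finset.sum_congr rfl fun s _ => ?_
    rw [flip_self, flip_ne h]
  have h4 : ∑ s : Fin n → Bool, F (s t) (s t') + ∑ s : Fin n → Bool, F (!s t) (s t') +
      ∑ s : Fin n → Bool, F (s t) (!s t') + ∑ s : Fin n → Bool, F (!s t) (!s t') =
      ∑ s : Fin n → Bool, (F true true + F true false + F false true + F false false) := by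
    rw [← Finset.sum_add_distrib, ← Finset.sum_add_distrib, ← Finset.sum_add_distrib]
    refine Finset.sum_congr rfl fun s _ => ?_
    cases s t <;> cases s t' <;> simp <;> ring
  have h5 : ∑ s : Fin n → Bool,
      (F true true + F true false + F false true + F false false) =
      2 ^ n * (F true true + F true false + F false true + F false false) := by
    rw [Finset.sum_const, nsmul_eq_mul, Finset.card_univ, Fintype.card_fun, Fintype.card_bool,
      Fintype.card_fin]
    push_cast; ring
  linarith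

/-- the coins as a function on the natural numbers -/
def ext {n : ℕ} (s : Fin n → Bool) (t : ℕ) : Bool := if h : t < n then s ⟨t, h⟩ else false

theorem ext_of_lt {n : ℕ} (s : Fin n → Bool) {t : ℕ} (h : t < n) : ext s t = s ⟨t, h⟩ := by
  unfold ext; rw [dif_pos h]

/-- **the cost of one level is paid by one random level** -/
theorem X_le_coins (hp : Paths N q p lam) (L a : ℕ) (c : ℕ → Perm (Fin m)) {i k : ℕ} (hi : i ≤ N)
    (hk : k ≤ N) : 2 ^ (N + 1) * X p lam L a c i k ≤ 4 * ∑ s : Fin (N + 1) → Bool,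
      (flux a (P p (on p lam L (ext s) c) k * (P p (on p lam L (ext s) c) i)⁻¹) : ℝ) := by
  have htk : top p lam (anc p lam L k) < N + 1 :=
    Nat.lt_succ_of_le ((top_le _).trans ((anc_le _ _).trans hk))
  have hti : top p lam (anc p lam L i) < N + 1 :=
    Nat.lt_succ_of_le ((top_le _).trans ((anc_le _ _).trans hi))
  set Wk := Wn p lam L c k with hWk
  set Wi := Wn p lam L c i with hWi
  have e : ∀ s : Fin (N + 1) → Bool,
      (flux a (P p (on p lam L (ext s) c) k * (P p (on p lam L (ext s) c) i)⁻¹) : ℝ) =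
      (flux a ((if s ⟨_, htk⟩ = true then Wk else 1) *
        (if s ⟨_, hti⟩ = true then Wi else 1)⁻¹) : ℝ) := by
    intro s
    rw [P_on hp L (ext s) c k hk, P_on hp L (ext s) c i hi, ext_of_lt s htk, ext_of_lt s hti]
  rw [Finset.sum_congr rfl fun s _ => e s]
  by_cases h : top p lam (anc p lam L k) = top p lam (anc p lam L i)
  · have e2 : (⟨_, htk⟩ : Fin (N + 1)) = ⟨_, hti⟩ := Fin.ext h
    rw [e2]
    have h1 := coin1 (⟨_, hti⟩ : Fin (N + 1)) (fun b =>
      (flux a ((if b = true then Wk else 1) * (if b = true then Wi else 1)⁻¹) : ℝ))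
    simp only [if_true, Bool.false_eq_true, if_false] at h1
    have hX : X p lam L a c i k = (flux a (Wk * Wi⁻¹) : ℝ) := by
      unfold X; rw [if_pos h]
    rw [hX]
    have h2 : (flux a ((1 : Perm (Fin m)) * 1⁻¹) : ℝ) = 0 := by
      rw [inv_one, mul_one, flux_one]; simp
    rw [h2, add_zero] at h1
    have h3 : (0 : ℝ) ≤ 2 ^ (N + 1) * (flux a (Wk * Wi⁻¹) : ℝ) := by positivity
    linarith
  · have hne : (⟨_, htk⟩ : Fin (N + 1)) ≠ ⟨_, hti⟩ := fun h' => h (Fin.mk.inj_iff.1 h')
    have h1 := coin2 hne (fun b b' =>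
      (flux a ((if b = true then Wk else 1) * (if b' = true then Wi else 1)⁻¹) : ℝ))
    simp only [if_true, Bool.false_eq_true, if_false] at h1
    rw [h1]
    have hX : X p lam L a c i k = (flux a Wk : ℝ) + flux a Wi := by
      unfold X; rw [if_neg h]
    rw [hX]
    refine mul_le_mul_of_nonneg_left ?_ (by positivity)
    rw [inv_one, mul_one, one_mul, flux_inv]
    have h3 : (0 : ℝ) ≤ (flux a (Wk * Wi⁻¹) : ℝ) := by positivity
    have h4 : (0 : ℝ) ≤ (flux a ((1 : Perm (Fin m)) * 1) : ℝ) := by positivity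
    linarith

/-! ### the windows of one level are windows of the word -/

theorem W_quot (c : ℕ → Perm (Fin m)) (a : ℕ) {i k : ℕ} (h : top p lam k = top p lam i) :
    flux a (W p lam c k * (W p lam c i)⁻¹) = flux a (wprod c (min i k) (max i k)) := by
  have hk : top p lam k ≤ k := top_le k
  have hi : top p lam i ≤ i := top_le i
  unfold W
  rw [h] at hk ⊢
  rcases le_total i k with h1 | h1
  · rw [min_eq_left h1, max_eq_right h1,
      wprod_mul c (show top p lam i - 1 ≤ i by omega) h1, mul_assoc, mul_inv_cancel, mul_one]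
  · rw [min_eq_right h1, max_eq_left h1,
      wprod_mul c (show top p lam i - 1 ≤ k by omega) h1, mul_inv_rev, ← mul_assoc,
      mul_inv_cancel, one_mul, flux_inv]

/-- the service of the windows gives the service of the level costs -/
theorem X_serve {K : ℝ} {ι : Type} [Fintype ι] {w : ι → ℝ} {c : ι → ℕ → Perm (Fin m)}
    {v : ℕ → Perm (Fin m)} {a : ℕ}
    (hs : ∀ x y, x ≤ y → y ≤ N →
      (flux a (wprod v x y) : ℝ) ≤ K * ∑ j, w j * (flux a (wprod (c j) x y) : ℝ))
    (L : ℕ) {i k : ℕ} (hi : i ≤ N) (hk : k ≤ N) :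
    X p lam L a v i k ≤ K * ∑ j, w j * X p lam L a (c j) i k := by
  have hak : anc p lam L k ≤ N := (anc_le _ _).trans hk
  have hai : anc p lam L i ≤ N := (anc_le _ _).trans hi
  have hW : ∀ e, e ≤ N → (flux a (W p lam v e) : ℝ) ≤
      K * ∑ j, w j * (flux a (W p lam (c j) e) : ℝ) := by
    intro e he
    have h1 : top p lam e ≤ e := top_le e
    exact hs _ _ (by omega) he
  have hWn : ∀ e, e ≤ N → (flux a (Wn p lam L v e) : ℝ) ≤
      K * ∑ j, w j * (flux a (Wn p lam L (c j) e) : ℝ) := by
    intro e he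
    unfold Wn
    by_cases h : lam (anc p lam L e) = L
    · simp only [if_pos h]
      exact hW _ ((anc_le _ _).trans he)
    · simp only [if_neg h, flux_one]
      simp
  unfold X
  by_cases h : top p lam (anc p lam L k) = top p lam (anc p lam L i)
  · simp only [if_pos h]
    have hlam : lam (anc p lam L k) = lam (anc p lam L i) := by
      have h1 := lam_top (p := p) (lam := lam) (anc p lam L k)
      have h2 := lam_top (p := p) (lam := lam) (anc p lam L i)
      rw [← h1, ← h2, h]
    by_cases hl : lam (anc p lam L k) = L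
    · have hl' : lam (anc p lam L i) = L := by omega
      unfold Wn
      simp only [if_pos hl, if_pos hl', W_quot _ a h]
      exact hs _ _ (min_le_max) (max_le hai hak)
    · have hl' : ¬ lam (anc p lam L i) = L := by omega
      unfold Wn
      simp only [if_neg hl, if_neg hl', inv_one, mul_one, flux_one]
      simp
  · simp only [if_neg h]
    have h1 := hWn k hk
    have h2 := hWn i hi
    have h3 : K * ∑ j, w j * ((flux a (Wn p lam L (c j) k) : ℝ) + flux a (Wn p lam L (c j) i)) =
        K * ∑ j, w j * (flux a (Wn p lam L (c j) k) : ℝ) +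
        K * ∑ j, w j * (flux a (Wn p lam L (c j) i) : ℝ) := by
      rw [← mul_add, ← Finset.sum_add_distrib]
      simp only [mul_add]
    rw [h3]
    linarith

/-- the word law on a tree of paths -/
def TreeLaw (p : ℕ → ℕ) (K : ℝ) (N : ℕ) : Prop :=
  ∀ (m : ℕ) (J : ℕ → Set ℕ),
    ∃ (ι : Type) (_ : Fintype ι) (w : ι → ℝ) (c : ι → ℕ → Perm (Fin m)),
      (∀ i, 0 ≤ w i) ∧ ∑ i, w i = 1 ∧ (∀ i t, c i t ∈ gates m (J t)) ∧
      ∀ i k, i ≤ N → k ≤ N → ∀ (a : ℕ) (v : ℕ → Perm (Fin m)), (∀ t, v t ∈ gates m (J t)) →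
        (flux a (P p v k * (P p v i)⁻¹) : ℝ) ≤
          K * ∑ j, w j * (flux a (P p (c j) k * (P p (c j) i)⁻¹) : ℝ)

/-- **The words theorem on trees.** -/
theorem treeLaw (hp : Paths N q p lam) {K : ℝ} (hK : 0 ≤ K) (hW : WordLaw K N) :
    TreeLaw p (4 * (q + 1) * K) N := by
  classical
  intro m J
  obtain ⟨ι, hι, w, c, hw0, hw1, hcm, hserve⟩ := hW m J
  refine ⟨ι × Fin (q + 1) × (Fin (N + 1) → Bool), inferInstance,
    fun ω => w ω.1 * (1 / ((q + 1) * 2 ^ (N + 1))),
    fun ω => on p lam ω.2.1 (ext ω.2.2) (c ω.1), fun ω => mul_nonneg (hw0 _) (by positivity),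
    ?_, ?_, ?_⟩
  · rw [Fintype.sum_prod_type]
    simp only [Finset.sum_const, Finset.card_univ, nsmul_eq_mul]
    rw [← Finset.mul_sum, ← Finset.sum_mul, hw1, one_mul, Fintype.card_prod, Fintype.card_fin,
      Fintype.card_fun, Fintype.card_bool, Fintype.card_fin]
    push_cast
    field_simp
  · intro ω t
    show on p lam ω.2.1 (ext ω.2.2) (c ω.1) t ∈ _
    unfold on
    split_ifs
    · exact hcm _ _
    · exact one_mem_gates _
  · intro i k hi hk a v hv
    have h1 := flux_le_sum hp a v hi hk
    have h2 : ∀ L, X p lam L a v i k ≤ K * ∑ j, w j * X p lam L a (c j) i k := fun L =>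
      X_serve (fun x y hxy hy => hserve x y hxy hy a v hv) L hi hk
    have h3 : ∀ j L, X p lam L a (c j) i k ≤ 4 / 2 ^ (N + 1) * ∑ s : Fin (N + 1) → Bool,
        (flux a (P p (on p lam L (ext s) (c j)) k *
          (P p (on p lam L (ext s) (c j)) i)⁻¹) : ℝ) := by
      intro j L
      have h4 := X_le_coins hp L a (c j) hi hk
      have h5 : (0 : ℝ) < 2 ^ (N + 1) := by positivity
      rw [div_mul_eq_mul_div, le_div_iff₀ h5, mul_comm]
      exact h4
    rw [Fintype.sum_prod_type]
    simp only [Fintype.sum_prod_type]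
    have h6 : ∑ l ∈ range (q + 1), X p lam l a v i k ≤
        ∑ l ∈ range (q + 1), K * ∑ j, w j * (4 / 2 ^ (N + 1) * ∑ s : Fin (N + 1) → Bool,
        (flux a (P p (on p lam l (ext s) (c j)) k *
          (P p (on p lam l (ext s) (c j)) i)⁻¹) : ℝ)) := by
      refine Finset.sum_le_sum fun l _ => (h2 l).trans ?_
      refine mul_le_mul_of_nonneg_left ?_ hK
      exact Finset.sum_le_sum fun j _ => mul_le_mul_of_nonneg_left (h3 j l) (hw0 j)
    refine (h1.trans h6).trans (le_of_eq ?_)
    rw [Finset.sum_range, ← Finset.mul_sum, Finset.sum_comm]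
    have h7 : ((q : ℝ) + 1) ≠ 0 := by positivity
    have h8 : ((2 : ℝ) ^ (N + 1)) ≠ 0 := by positivity
    rw [Finset.mul_sum, Finset.mul_sum]
    refine Finset.sum_congr rfl fun j _ => ?_
    rw [Finset.mul_sum, Finset.mul_sum]
    refine Finset.sum_congr rfl fun l _ => ?_
    rw [← Finset.mul_sum]
    field_simp

end Vale.Agent.P235.H37T
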