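/-
P235, helper37.  Words on trees, part 3: the integer model (after helper168, Static.lean).
-/
import Vale.Agent.P235.R2.H37T.Law
import Vale.Agent.P235.R2.H168.Static

namespace Vale.Agent.P235.H37T

open Equiv Finset VPBruhat VPRed

/-- Integer model: bags `B 0, ..., B N` on a rooted tree with parent `p`, heights `H`, and a
semimetric `ρ` dominated by the height difference inside every bag. -/
structure TreeModel {V : Type} (N : ℕ) (p : ℕ → ℕ) (B : ℕ → Set V) (H : V → ℕ) (M : ℕ)
    (ρ : V → V → ℝ) : Prop where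
  par : ∀ j, 0 < j → j ≤ N → p j < j
  cover : ∀ x, ∃ i, i ≤ N ∧ x ∈ B i ∧ ∀ j, j ≤ N → x ∈ B j → j ≠ i → 0 < j ∧ x ∈ B (p j)
  lo : ∀ x, M ≤ H x
  hi : ∀ x, H x ≤ 2 * M
  tri : ∀ x y z, ρ x z ≤ ρ x y + ρ y z
  symm : ∀ x y, ρ x y = ρ y x
  le : ∀ x y, ρ x y ≤ 2 * M
  bag : ∀ i ≤ N, ∀ x ∈ B i, ∀ y ∈ B i, ρ x y ≤ |(H x : ℝ) - H y|

/-- the levels common to two bags -/
def com {V : Type} (B : ℕ → Set V) (H : V → ℕ) (i j : ℕ) : Set ℕ :=
  {c | ∃ z, z ∈ B i ∧ z ∈ B j ∧ c = H z}

/-- the levels which are preserved in the step `t` (from the bag `p (t + 1)` to `t + 1`) -/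
def levT {V : Type} (p : ℕ → ℕ) (B : ℕ → Set V) (H : V → ℕ) (t : ℕ) : Set ℕ :=
  com B H (t + 1) (p (t + 1))

theorem com_comm {V : Type} (B : ℕ → Set V) (H : V → ℕ) (i j : ℕ) : com B H i j = com B H j i := by
  ext c
  constructor
  · rintro ⟨z, h1, h2, h3⟩; exact ⟨z, h2, h1, h3⟩
  · rintro ⟨z, h1, h2, h3⟩; exact ⟨z, h2, h1, h3⟩

theorem gates_inv {m : ℕ} {J : Set ℕ} {v : Perm (Fin m)} (h : v ∈ gates m J) :
    v⁻¹ ∈ gates m J := by
  rw [mem_gates] at h ⊢
  intro c hc x
  have h1 := h c hc (v⁻¹ x)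
  have h2 : v (v⁻¹ x) = x := v.apply_symm_apply x
  rw [h2] at h1
  exact h1.symm

theorem P_congr {m : ℕ} {p : ℕ → ℕ} {c c' : ℕ → Perm (Fin m)} (i : ℕ)
    (h : ∀ t, t < i → c t = c' t) : P p c i = P p c' i := by
  induction i using Nat.strong_induction_on with
  | _ i ih =>
    by_cases h1 : p i < i
    · have e1 : P p c i = c (i - 1) * P p c (p i) := by conv_lhs => rw [P, dif_pos h1]
      have e2 : P p c' i = c' (i - 1) * P p c' (p i) := by conv_lhs => rw [P, dif_pos h1]
      rw [e1, e2, h (i - 1) (by omega), ih (p i) h1 (fun t ht => h t (by omega))]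
    · have e1 : P p c i = 1 := by conv_lhs => rw [P, dif_neg h1]
      have e2 : P p c' i = 1 := by conv_lhs => rw [P, dif_neg h1]
      rw [e1, e2]

namespace TreeModel

variable {V : Type} {N : ℕ} {p : ℕ → ℕ} {B : ℕ → Set V} {H : V → ℕ} {M : ℕ} {ρ : V → V → ℝ}

theorem P_par (h : TreeModel N p B H M ρ) {m : ℕ} (c : ℕ → Perm (Fin m)) {i : ℕ} (h0 : 0 < i)
    (hi : i ≤ N) : P p c i = c (i - 1) * P p c (p i) := by
  conv_lhs => rw [P, dif_pos (h.par i h0 hi)]

/-- the profile `π` of `x` at the bag `j` is large enough -/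
def Good (B : ℕ → Set V) (H : V → ℕ) (M : ℕ) (ρ : V → V → ℝ) (x : V) (j : ℕ)
    (π : Perm (Fin (3 * M))) : Prop :=
  ∀ z ∈ B j, ρ x z ≤ 2 * (rr (H x) (H z) π : ℝ) + H z - H x

theorem good_base (h : TreeModel N p B H M ρ) {x : V} {i : ℕ} (hi : i ≤ N) (hx : x ∈ B i) :
    Good B H M ρ x i 1 := by
  have hHx := h.hi x
  intro z hz
  rw [rr_one (by omega)]
  refine (h.bag i hi x hx z hz).trans ?_
  rcases le_total (H x) (H z) with h1 | h1
  · have h2 : (H x : ℝ) ≤ H z := by exact_mod_cast h1
    rw [abs_of_nonpos (by linarith), Nat.sub_eq_zero_of_le h1]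
    push_cast; linarith
  · have h2 : (H z : ℝ) ≤ H x := by exact_mod_cast h1
    rw [abs_of_nonneg (by linarith), Nat.cast_sub h1]
    linarith

theorem good_step (h : TreeModel N p B H M ρ) {x : V} {j j' : ℕ} (hj' : j' ≤ N)
    {π : Perm (Fin (3 * M))} (hG : Good B H M ρ x j π) :
    ∃ g ∈ gates (3 * M) (com B H j j'), Good B H M ρ x j' (g * π) := by
  have hHx := h.hi x
  have hHx' := h.lo x
  obtain ⟨g, hg, hgr⟩ := greedy (m := 3 * M) (com B H j j') (H x) π
  refine ⟨g, hg, ?_⟩
  intro z hz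
  have hHz := h.hi z
  have hHz' := h.lo z
  obtain ⟨l, u, h1, h2, h3, h4, h5, h6⟩ := hgr (H z) (by omega)
  have h1' : (l : ℝ) ≤ H z := by exact_mod_cast h1
  have h2' : (H z : ℝ) ≤ u := by exact_mod_cast h2
  have hM1 : (M : ℝ) ≤ H x := by exact_mod_cast hHx'
  have hM2 : (M : ℝ) ≤ H z := by exact_mod_cast hHz'
  have hM3 : (H x : ℝ) ≤ 2 * M := by exact_mod_cast hHx
  have hM4 : (H z : ℝ) ≤ 2 * M := by exact_mod_cast hHz
  rcases h6 with h6 | h6
  · have h6' : (rr (H x) l π : ℝ) ≤ rr (H x) (H z) (g * π) := by exact_mod_cast h6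
    rcases h4 with rfl | ⟨z1, hz1, hz1', rfl⟩
    · rw [rr_zero (by omega)] at h6'
      have := h.le x z
      linarith
    · have h7 := hG z1 hz1
      have h8 := h.bag j' hj' z1 hz1' z hz
      have h9 := h.tri x z1 z
      rw [abs_of_nonpos (by linarith)] at h8
      linarith
  · have h6' : ((u : ℝ) - H z) + (rr (H x) u π : ℝ) ≤ rr (H x) (H z) (g * π) := by
      rw [← Nat.cast_sub h2]
      exact_mod_cast h6
    rcases h5 with rfl | ⟨z1, hz1, hz1', rfl⟩
    · have h7 : (0 : ℝ) ≤ (rr (H x) (3 * M) π : ℝ) := Nat.cast_nonneg _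
      have := h.le x z
      push_cast at h6'
      linarith
    · have h7 := hG z1 hz1
      have h8 := h.bag j' hj' z1 hz1' z hz
      have h9 := h.tri x z1 z
      rw [abs_of_nonneg (by linarith)] at h8
      linarith

/-- **Static bound on the tree**: some configuration has flux at least the distance. -/
theorem static (h : TreeModel N p B H M ρ) {x : V} :
    ∀ n i k, i + k ≤ n → i ≤ N → k ≤ N → ∀ π : Perm (Fin (3 * M)), Good B H M ρ x i π →
      ∃ v : ℕ → Perm (Fin (3 * M)), (∀ t, v t ∈ gates (3 * M) (levT p B H t)) ∧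
        Good B H M ρ x k (P p v k * (P p v i)⁻¹ * π) := by
  intro n
  induction n with
  | zero =>
    intro i k hn hi hk π hG
    obtain rfl : i = 0 := by omega
    obtain rfl : k = 0 := by omega
    refine ⟨fun _ => 1, fun t => one_mem_gates _, ?_⟩
    rw [mul_inv_cancel, one_mul]
    exact hG
  | succ n ih =>
    intro i k hn hi hk π hG
    rcases lt_trichotomy i k with hik | rfl | hik
    · -- the last step leads from `p k` to `k`
      have h0 : 0 < k := by omega
      have hpk := h.par k h0 hk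
      obtain ⟨v, hv, hvG⟩ := ih i (p k) (by omega) hi (by omega) π hG
      obtain ⟨g, hg, hgG⟩ := h.good_step hk hvG
      have ek : k - 1 + 1 = k := by omega
      refine ⟨Function.update v (k - 1) g, ?_, ?_⟩
      · intro t
        by_cases ht : t = k - 1
        · subst ht
          rw [Function.update_self]
          unfold levT
          rw [ek, com_comm]
          exact hg
        · rw [Function.update_of_ne ht]; exact hv t
      · have e1 : P p (Function.update v (k - 1) g) (p k) = P p v (p k) :=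
          P_congr _ fun t ht => Function.update_of_ne (by omega) _ _
        have e2 : P p (Function.update v (k - 1) g) i = P p v i :=
          P_congr _ fun t ht => Function.update_of_ne (by omega) _ _
        rw [h.P_par _ h0 hk, e1, e2, Function.update_self]
        have e3 : g * P p v (p k) * (P p v i)⁻¹ * π = g * (P p v (p k) * (P p v i)⁻¹ * π) := by
          group
        rw [e3]
        exact hgG
    · refine ⟨fun _ => 1, fun t => one_mem_gates _, ?_⟩
      rw [mul_inv_cancel, one_mul]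
      exact hG
    · -- the first step leads from `i` to `p i`
      have h0 : 0 < i := by omega
      have hpi := h.par i h0 hi
      have ei : i - 1 + 1 = i := by omega
      obtain ⟨g, hg, hgG⟩ := h.good_step (j' := p i) (by omega) hG
      obtain ⟨v, hv, hvG⟩ := ih (p i) k (by omega) (by omega) hk (g * π) hgG
      refine ⟨Function.update v (i - 1) g⁻¹, ?_, ?_⟩
      · intro t
        by_cases ht : t = i - 1
        · subst ht
          rw [Function.update_self]
          unfold levT
          rw [ei]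
          exact gates_inv hg
        · rw [Function.update_of_ne ht]; exact hv t
      · have e1 : P p (Function.update v (i - 1) g⁻¹) (p i) = P p v (p i) :=
          P_congr _ fun t ht => Function.update_of_ne (by omega) _ _
        have e2 : P p (Function.update v (i - 1) g⁻¹) k = P p v k :=
          P_congr _ fun t ht => Function.update_of_ne (by omega) _ _
        rw [h.P_par _ h0 hi, e1, e2, Function.update_self]
        have e3 : P p v k * (g⁻¹ * P p v (p i))⁻¹ * π = P p v k * (P p v (p i))⁻¹ * (g * π) := by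
          group
        rw [e3]
        exact hvG

/-- strands below the height `a` at the bag `i` -/
def low {m : ℕ} (p : ℕ → ℕ) (c : ℕ → Perm (Fin m)) (i a : ℕ) (w : Fin m) : Bool :=
  decide (((P p c i w : Fin m) : ℕ) < a)

theorem low_congr (h : TreeModel N p B H M ρ) {c : ℕ → Perm (Fin (3 * M))}
    (hc : ∀ t, c t ∈ gates (3 * M) (levT p B H t)) {x : V} {b : ℕ}
    (hb : ∀ j, j ≤ N → x ∈ B j → j ≠ b → 0 < j ∧ x ∈ B (p j)) (w : Fin (3 * M)) :
    ∀ i, i ≤ N → x ∈ B i → low p c i (H x) w = low p c b (H x) w := by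
  intro i
  induction i using Nat.strong_induction_on with
  | _ i ih =>
    intro hi hx
    by_cases hib : i = b
    · rw [hib]
    · obtain ⟨h0, hx'⟩ := hb i hi hx hib
      have hpi := h.par i h0 hi
      rw [← ih (p i) hpi (by omega) hx']
      unfold low
      rw [h.P_par c h0 hi, Perm.mul_apply]
      have ei : i - 1 + 1 = i := by omega
      have := mem_gates.1 (hc (i - 1)) (H x) ⟨x, by rw [ei]; exact hx, by rw [ei]; exact hx', rfl⟩
        (P p c (p i) w)
      exact decide_eq_decide.2 this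

/-- the number of strands in the symmetric difference -/
theorem card_low {m : ℕ} (c : ℕ → Perm (Fin m)) {i k a b : ℕ} (ha : a ≤ m) (hb : b ≤ m) :
    ((∑ w : Fin m, if low p c i a w = low p c k b w then (0 : ℝ) else 1)) =
      2 * (rr a b (P p c k * (P p c i)⁻¹) : ℝ) + b - a := by
  classical
  set Q := P p c i with hQ
  set π := P p c k * Q⁻¹ with hπ
  have e : P p c k = π * Q := by rw [hπ]; group
  -- reindex by the position at the bag `i`
  have e1 : (∑ w : Fin m, if low p c i a w = low p c k b w then (0 : ℝ) else 1) =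
      ∑ x : Fin m, if ((x : ℕ) < a ↔ ((π x : Fin m) : ℕ) < b) then (0 : ℝ) else 1 := by
    refine Fintype.sum_equiv Q _ _ (fun w => ?_)
    unfold low
    rw [e, Perm.mul_apply, ← hQ]
    by_cases h1 : ((Q w : Fin m) : ℕ) < a <;> by_cases h2 : ((π (Q w) : Fin m) : ℕ) < b <;>
      simp [h1, h2]
  rw [e1]
  have e2 : ∀ p : Fin m, (if ((p : ℕ) < a ↔ ((π p : Fin m) : ℕ) < b) then (0 : ℝ) else 1) =
      2 * (if (p : ℕ) < a ∧ b ≤ (π p : ℕ) then (1 : ℝ) else 0) +
        (if ((π p : Fin m) : ℕ) < b then (1 : ℝ) else 0) - (if (p : ℕ) < a then (1 : ℝ) else 0) := by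
    intro p
    by_cases h1 : (p : ℕ) < a <;> by_cases h2 : ((π p : Fin m) : ℕ) < b
    · have h3 : ¬ b ≤ (π p : ℕ) := by omega
      simp [h1, h2, h3]
    · have h3 : b ≤ (π p : ℕ) := by omega
      simp [h1, h2, h3]; norm_num
    · have h3 : ¬ b ≤ (π p : ℕ) := by omega
      simp [h1, h2]
    · simp [h1, h2]
  rw [Finset.sum_congr rfl (fun p _ => e2 p), Finset.sum_sub_distrib, Finset.sum_add_distrib,
    ← Finset.mul_sum]
  have c1 : (∑ p : Fin m, if (p : ℕ) < a ∧ b ≤ (π p : ℕ) then (1 : ℝ) else 0) = rr a b π := by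
    unfold rr
    rw [Finset.card_filter]; push_cast; rfl
  have c2 : (∑ p : Fin m, if ((π p : Fin m) : ℕ) < b then (1 : ℝ) else 0) = b := by
    have h1 := card_preimage_lt π (fun q => (q : ℕ) < b)
    have h2 := card_pos (m := m) (b := 0) hb
    simp only [Nat.zero_le, true_and, Nat.sub_zero] at h2
    rw [h2] at h1
    have h3 : ((univ.filter (fun p : Fin m => ((π p : Fin m) : ℕ) < b)).card : ℝ) = b := by
      exact_mod_cast h1
    rw [Finset.card_filter] at h3
    push_cast at h3
    exact h3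
  have c3 : (∑ p : Fin m, if (p : ℕ) < a then (1 : ℝ) else 0) = a := by
    have h2 := card_pos (m := m) (b := 0) ha
    simp only [Nat.zero_le, true_and, Nat.sub_zero] at h2
    have h3 : ((univ.filter (fun p : Fin m => (p : ℕ) < a)).card : ℝ) = a := by
      exact_mod_cast h2
    rw [Finset.card_filter] at h3
    push_cast at h3
    exact h3
  rw [c1, c2, c3]

/-- **The combinatorial theorem on trees.** -/
theorem main (h : TreeModel N p B H M ρ) {K : ℝ} (hK : 1 ≤ K) (hW : TreeLaw p K N) :
    ∃ (ι : Type) (_ : Fintype ι) (w : ι → ℝ) (c : ι → V → Bool), (∀ i, 0 ≤ w i) ∧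
      (∀ i ≤ N, ∀ x ∈ B i, ∀ y ∈ B i,
        ∑ j, w j * (if c j x = c j y then (0 : ℝ) else 1) = |(H x : ℝ) - H y|) ∧
      ∀ x y, ρ x y ≤ (4 * K + 3) * ∑ j, w j * (if c j x = c j y then (0 : ℝ) else 1) := by
  classical
  obtain ⟨ι, hι, w, c, hw0, hw1, hcm, hserve⟩ := hW (3 * M) (levT p B H)
  choose b hbN hbB hbT using h.cover
  refine ⟨ι × Fin (3 * M), inferInstance, fun j => w j.1,
    fun j x => low p (c j.1) (b x) (H x) j.2, fun j => hw0 j.1, ?_⟩
  have hH : ∀ x, H x ≤ 3 * M := fun x => by have := h.hi x; omega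
  -- the value of the sum, through any bags
  have key : ∀ x y i k, i ≤ N → k ≤ N → x ∈ B i → y ∈ B k →
      ∑ j : ι × Fin (3 * M), w j.1 * (if low p (c j.1) (b x) (H x) j.2 =
        low p (c j.1) (b y) (H y) j.2 then (0 : ℝ) else 1) =
      ∑ j, w j * (2 * (rr (H x) (H y) (P p (c j) k * (P p (c j) i)⁻¹) : ℝ) + H y - H x) := by
    intro x y i k hi hk hx hy
    rw [Fintype.sum_prod_type]
    refine Finset.sum_congr rfl (fun j _ => ?_)
    dsimp only
    rw [← Finset.mul_sum, ← card_low (c j) (hH x) (hH y)]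
    congr 1
    refine Finset.sum_congr rfl (fun s _ => ?_)
    rw [h.low_congr (fun t => hcm j t) (hbT x) s i hi hx,
      h.low_congr (fun t => hcm j t) (hbT y) s k hk hy]
  have hsymm : ∀ x y, ∑ j : ι × Fin (3 * M), w j.1 * (if low p (c j.1) (b x) (H x) j.2 =
        low p (c j.1) (b y) (H y) j.2 then (0 : ℝ) else 1) =
      ∑ j : ι × Fin (3 * M), w j.1 * (if low p (c j.1) (b y) (H y) j.2 =
        low p (c j.1) (b x) (H x) j.2 then (0 : ℝ) else 1) := by
    intro x y
    refine Finset.sum_congr rfl (fun j _ => ?_)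
    simp only [eq_comm]
  constructor
  · have main1 : ∀ i ≤ N, ∀ x ∈ B i, ∀ y ∈ B i, H x ≤ H y →
        ∑ j : ι × Fin (3 * M), w j.1 * (if low p (c j.1) (b x) (H x) j.2 =
          low p (c j.1) (b y) (H y) j.2 then (0 : ℝ) else 1) = |(H x : ℝ) - H y| := by
      intro i hi x hx y hy hxy
      rw [key x y i i hi hi hx hy]
      have h2 : (H x : ℝ) ≤ H y := by exact_mod_cast hxy
      rw [abs_of_nonpos (by linarith)]
      have : ∀ j, w j * (2 * (rr (H x) (H y) (P p (c j) i * (P p (c j) i)⁻¹) : ℝ) + H y - H x) =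
          w j * ((H y : ℝ) - H x) := by
        intro j
        rw [mul_inv_cancel, rr_one (hH x), Nat.sub_eq_zero_of_le hxy]
        push_cast; ring
      rw [Finset.sum_congr rfl (fun j _ => this j), ← Finset.sum_mul, hw1]
      ring
    intro i hi x hx y hy
    rcases le_total (H x) (H y) with h1 | h1
    · exact main1 i hi x hx y hy h1
    · rw [hsymm, abs_sub_comm]
      exact main1 i hi y hy x hx h1
  · intro x y
    rw [key x y (b x) (b y) (hbN x) (hbN y) (hbB x) (hbB y)]
    obtain ⟨v, hv, hvz⟩ := h.static (x := x) _ (b x) (b y) le_rfl (hbN x) (hbN y) 1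
      (h.good_base (hbN x) (hbB x))
    rw [mul_one] at hvz
    have h1 := hvz y (hbB y)
    have h2 := hserve (b x) (b y) (hbN x) (hbN y) (H x) v hv
    set D : ℝ := |(H x : ℝ) - H y| with hD
    have hDn : 0 ≤ D := abs_nonneg _
    -- comparison of `rr a b` and `flux a`
    have hr1 : ∀ π : Perm (Fin (3 * M)), (rr (H x) (H y) π : ℝ) ≤ flux (H x) π + D := by
      intro π
      have h3 := rr_lip (H x) (H y) (H x) π
      have h4 : ((H x - H y : ℕ) : ℝ) ≤ D := by
        rcases le_total (H y) (H x) with h5 | h5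
        · rw [Nat.cast_sub h5, hD]; exact le_abs_self _
        · rw [Nat.sub_eq_zero_of_le h5]; simpa using hDn
      have h5 : (rr (H x) (H y) π : ℝ) ≤ rr (H x) (H x) π + ((H x - H y : ℕ) : ℝ) := by
        exact_mod_cast h3
      rw [rr_self] at h5
      linarith
    have hr2 : ∀ π : Perm (Fin (3 * M)), (flux (H x) π : ℝ) ≤ rr (H x) (H y) π + D := by
      intro π
      have h3 := rr_lip (H x) (H x) (H y) π
      have h4 : ((H y - H x : ℕ) : ℝ) ≤ D := by
        rcases le_total (H x) (H y) with h5 | h5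
        · rw [Nat.cast_sub h5, hD, abs_sub_comm]; exact le_abs_self _
        · rw [Nat.sub_eq_zero_of_le h5]; simpa using hDn
      have h5 : (rr (H x) (H x) π : ℝ) ≤ rr (H x) (H y) π + ((H y - H x : ℕ) : ℝ) := by
        exact_mod_cast h3
      rw [rr_self] at h5
      linarith
    have hr3 : ∀ π : Perm (Fin (3 * M)),
        D ≤ 2 * (rr (H x) (H y) π : ℝ) + H y - H x := by
      intro π
      rcases le_total (H x) (H y) with h5 | h5
      · have h6 : (H x : ℝ) ≤ H y := by exact_mod_cast h5
        rw [hD, abs_of_nonpos (by linarith)]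
        have : (0 : ℝ) ≤ rr (H x) (H y) π := Nat.cast_nonneg _
        linarith
      · have h6 : (H y : ℝ) ≤ H x := by exact_mod_cast h5
        rw [hD, abs_of_nonneg (by linarith)]
        have h7 := rr_lip (H x) 0 (H y) π
        rw [rr_zero (hH x)] at h7
        have h8 : (H x : ℝ) ≤ rr (H x) (H y) π + H y := by exact_mod_cast h7
        linarith
    set R : ι → Perm (Fin (3 * M)) := fun j => P p (c j) (b y) * (P p (c j) (b x))⁻¹ with hR
    set E : ℝ := ∑ j, w j * (2 * (rr (H x) (H y) (R j) : ℝ) + H y - H x) with hE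
    have hE1 : D ≤ E := by
      have : ∑ j, w j * D ≤ E := Finset.sum_le_sum (fun j _ =>
        mul_le_mul_of_nonneg_left (hr3 _) (hw0 j))
      rwa [← Finset.sum_mul, hw1, one_mul] at this
    have hHD : -D ≤ (H y : ℝ) - H x := by
      rw [hD, abs_sub_comm]; exact neg_abs_le _
    have hHD' : (H y : ℝ) - H x ≤ D := by
      rw [hD, abs_sub_comm]; exact le_abs_self _
    have hE2 : 2 * ∑ j, w j * (flux (H x) (R j) : ℝ) - 3 * D ≤ E := by
      have h3 : ∑ j, w j * (2 * (flux (H x) (R j) : ℝ) - 3 * D) ≤ E :=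
        Finset.sum_le_sum (fun j _ => mul_le_mul_of_nonneg_left (by
          have := hr2 (R j); linarith) (hw0 j))
      have h4 : ∑ j, w j * (2 * (flux (H x) (R j) : ℝ) - 3 * D) =
          2 * ∑ j, w j * (flux (H x) (R j) : ℝ) - 3 * D := by
        have : ∀ j, w j * (2 * (flux (H x) (R j) : ℝ) - 3 * D) =
            2 * (w j * (flux (H x) (R j) : ℝ)) - w j * (3 * D) := by
          intro j; ring
        rw [Finset.sum_congr rfl (fun j _ => this j), Finset.sum_sub_distrib,
          ← Finset.mul_sum, ← Finset.sum_mul, hw1, one_mul]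
      linarith
    have h3 := hr1 (P p v (b y) * (P p v (b x))⁻¹)
    set F : ℝ := ∑ j, w j * (flux (H x) (R j) : ℝ) with hF
    have h4 : ρ x y ≤ 2 * (K * F) + 3 * D := by linarith
    have h5 : K * (2 * F) ≤ K * (E + 3 * D) := mul_le_mul_of_nonneg_left (by linarith)
      (by linarith)
    have h6 : K * D ≤ K * E := mul_le_mul_of_nonneg_left hE1 (by linarith)
    nlinarith

end TreeModel

end Vale.Agent.P235.H37T
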