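/-
P235, helper37.  Words on trees, part 4: embeddings of metrics and graphs (after helper168,
Bags.lean and Quasi.lean).
-/
import Vale.Agent.P235.R2.H37T.Model
import Vale.Agent.P235.R2.H168.Graph

namespace Vale.Agent.P235.H37T

open Equiv Finset VPBruhat VPRed MeasureTheory

/-- **The bag theorem with slopes, on trees.**  A metric generated by distances inside bags, and one
function `h` which is 1-Lipschitz on every bag and contracts distances inside a bag at most `D`
times. -/
theorem bag_embeds_quasi {V : Type} [Finite V] {d : V → V → ℝ} {N : ℕ} {p : ℕ → ℕ}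
    {B : ℕ → Set V} (hpar : ∀ j, 0 < j → j ≤ N → p j < j)
    (hcov : ∀ x, ∃ i, i ≤ N ∧ x ∈ B i ∧ ∀ j, j ≤ N → x ∈ B j → j ≠ i → 0 < j ∧ x ∈ B (p j))
    (h : V → ℝ) {D : ℝ} (hD : 1 ≤ D)
    (hh1 : ∀ i, i ≤ N → ∀ x ∈ B i, ∀ y ∈ B i, |h x - h y| ≤ d x y)
    (hh2 : ∀ i, i ≤ N → ∀ x ∈ B i, ∀ y ∈ B i, d x y ≤ D * |h x - h y|)
    (hd : BagGen d N B) {K : ℝ} (hK : 1 ≤ K) (hW : TreeLaw p K N) :
    Vale.Agent.P235.EmbedsL1 d (8 * D * K) := by
  classical
  have := Fintype.ofFinite V
  rcases isEmpty_or_nonempty V with hV | hV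
  · exact embeds_of_cuts (ι := Empty) (fun _ => 0) (fun _ _ => true) (fun i => i.elim)
      (fun x => (hV.false x).elim) (fun x => (hV.false x).elim)
  -- the smallest distance
  obtain ⟨δ, hδ, hδd⟩ : ∃ δ : ℝ, 0 < δ ∧ ∀ x y, x ≠ y → δ ≤ d x y := by
    rcases (Finset.univ.filter (fun p : V × V => p.1 ≠ p.2)).eq_empty_or_nonempty with he | hne
    · refine ⟨1, one_pos, fun x y hxy => ?_⟩
      have : (x, y) ∈ Finset.univ.filter (fun p : V × V => p.1 ≠ p.2) := by simpa using hxy
      rw [he] at this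
      exact absurd this (Finset.notMem_empty _)
    · obtain ⟨p, hp, hmin⟩ := Finset.exists_min_image _ (fun p : V × V => d p.1 p.2) hne
      refine ⟨d p.1 p.2, hd.pos _ _ (by simpa using hp), fun x y hxy => ?_⟩
      exact hmin (x, y) (by simpa using hxy)
  -- bounds for heights and distances
  obtain ⟨xm, -, hxm⟩ := Finset.exists_min_image Finset.univ h ⟨hV.some, mem_univ _⟩
  obtain ⟨xM, -, hxM⟩ := Finset.exists_max_image Finset.univ h ⟨hV.some, mem_univ _⟩
  obtain ⟨pM, -, hpM⟩ := Finset.exists_max_image Finset.univ (fun p : V × V => d p.1 p.2)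
    ⟨(hV.some, hV.some), mem_univ _⟩
  have hD0 : 0 < D := by linarith
  set q : ℝ := 15 * D / δ with hq
  have hq0 : 0 < q := by positivity
  obtain ⟨M, hM⟩ := exists_nat_ge (q * (h xM - h xm) + q * d pM.1 pM.2)
  have hdn : ∀ x y, 0 ≤ d x y := by
    intro x y
    by_cases hxy : x = y
    · rw [hxy, hd.self]
    · exact (hd.pos x y hxy).le
  have hM1 : ∀ x, q * (h x - h xm) ≤ M := by
    intro x
    have h1 : q * (h x - h xm) ≤ q * (h xM - h xm) := by
      apply mul_le_mul_of_nonneg_left _ hq0.le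
      have := hxM x (mem_univ _)
      linarith
    have h2 : 0 ≤ q * d pM.1 pM.2 := mul_nonneg hq0.le (hdn _ _)
    linarith
  have hM2 : ∀ x y, q * d x y ≤ M := by
    intro x y
    have h1 : q * d x y ≤ q * d pM.1 pM.2 :=
      mul_le_mul_of_nonneg_left (hpM (x, y) (mem_univ _)) hq0.le
    have h2 : 0 ≤ q * (h xM - h xm) := by
      apply mul_nonneg hq0.le
      have := hxM xm (mem_univ _)
      linarith
    linarith
  have hpos : ∀ x, 0 ≤ q * (h x - h xm) := by
    intro x
    apply mul_nonneg hq0.le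
    have := hxm x (mem_univ _)
    linarith
  set H : V → ℕ := fun x => M + ⌊q * (h x - h xm)⌋₊ with hH
  -- rounding
  have hround : ∀ x y, x ≠ y → ∀ i, i ≤ N → x ∈ B i → y ∈ B i →
      (14 / 15) * (q * d x y / D) ≤ |(H x : ℝ) - H y| ∧
      |(H x : ℝ) - H y| ≤ (16 / 15) * (q * d x y) := by
    intro x y hxy i hi hx hy
    have h1 : (15 : ℝ) * D ≤ q * d x y := by
      have := mul_le_mul_of_nonneg_left (hδd x y hxy) hq0.le
      rw [hq] at this ⊢
      rw [div_mul_cancel₀ _ hδ.ne'] at this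
      exact this
    set s : ℝ := |q * (h x - h xm) - q * (h y - h xm)| with hs
    have h2 : s = q * |h x - h y| := by
      have : q * (h x - h xm) - q * (h y - h xm) = q * (h x - h y) := by ring
      rw [hs, this, abs_mul, abs_of_pos hq0]
    have h2a : s ≤ q * d x y := by
      rw [h2]; exact mul_le_mul_of_nonneg_left (hh1 i hi x hx y hy) hq0.le
    have h2b : q * d x y / D ≤ s := by
      rw [h2, div_le_iff₀ hD0]
      have := mul_le_mul_of_nonneg_left (hh2 i hi x hx y hy) hq0.le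
      linarith
    have h2c : 15 ≤ q * d x y / D := by rwa [le_div_iff₀ hD0]
    have h3 : (H x : ℝ) - H y =
        (⌊q * (h x - h xm)⌋₊ : ℝ) - (⌊q * (h y - h xm)⌋₊ : ℝ) := by
      simp only [hH]; push_cast; ring
    have f1 := Nat.floor_le (hpos x)
    have f2 := Nat.lt_floor_add_one (q * (h x - h xm))
    have f3 := Nat.floor_le (hpos y)
    have f4 := Nat.lt_floor_add_one (q * (h y - h xm))
    have h4 : |((⌊q * (h x - h xm)⌋₊ : ℝ) - (⌊q * (h y - h xm)⌋₊ : ℝ)) -
        (q * (h x - h xm) - q * (h y - h xm))| ≤ 1 := by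
      rw [abs_le]; constructor <;> linarith
    rw [h3]
    have h5 := abs_sub_abs_le_abs_sub ((⌊q * (h x - h xm)⌋₊ : ℝ) - (⌊q * (h y - h xm)⌋₊ : ℝ))
      (q * (h x - h xm) - q * (h y - h xm))
    have h6 := abs_sub_abs_le_abs_sub (q * (h x - h xm) - q * (h y - h xm))
      ((⌊q * (h x - h xm)⌋₊ : ℝ) - (⌊q * (h y - h xm)⌋₊ : ℝ))
    rw [abs_sub_comm (q * (h x - h xm) - q * (h y - h xm))
      ((⌊q * (h x - h xm)⌋₊ : ℝ) - (⌊q * (h y - h xm)⌋₊ : ℝ))] at h6
    constructor <;> linarith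
  have hmodel : TreeModel N p B H M (fun x y => (14 / 15) * (q * d x y / D)) := by
    refine ⟨hpar, hcov, fun x => Nat.le_add_right _ _, ?_, ?_, ?_, ?_, ?_⟩
    · intro x
      have : ⌊q * (h x - h xm)⌋₊ ≤ M := by
        have := Nat.floor_le_floor (hM1 x)
        rwa [Nat.floor_natCast] at this
      simp only [hH]; omega
    · intro x y z
      have h1 := mul_le_mul_of_nonneg_left (hd.tri x y z) hq0.le
      have h2 := (div_le_div_iff_of_pos_right hD0).2 h1
      rw [mul_add, add_div] at h2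
      linarith
    · intro x y
      simp only [hd.symm x y]
    · intro x y
      have h1 := hM2 x y
      have h2 := mul_nonneg hq0.le (hdn x y)
      have h3 : (0 : ℝ) ≤ M := Nat.cast_nonneg _
      have h4 : q * d x y / D ≤ q * d x y := div_le_self h2 hD
      show (14 / 15) * (q * d x y / D) ≤ 2 * M
      linarith
    · intro i hi x hx y hy
      by_cases hxy : x = y
      · subst hxy
        show (14 / 15) * (q * d x x / D) ≤ _
        rw [hd.self]; simp
      · exact (hround x y hxy i hi hx hy).1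
  obtain ⟨ι, hι, w, c, hw, hbag, hlow⟩ := hmodel.main hK hW
  set E : V → V → ℝ := fun x y => ∑ j, w j * (if c j x = c j y then (0 : ℝ) else 1) with hE
  have hEself : ∀ x, E x x = 0 := by intro x; simp [hE]
  have hEtri : ∀ x y z, E x z ≤ E x y + E y z := by
    intro x y z
    simp only [hE]
    rw [← Finset.sum_add_distrib]
    refine Finset.sum_le_sum (fun j _ => ?_)
    rw [← mul_add]
    refine mul_le_mul_of_nonneg_left ?_ (hw j)
    cases c j x <;> cases c j y <;> cases c j z <;> norm_num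
  have hupper : ∀ x y, E x y ≤ (16 / 15) * (q * d x y) := by
    have h1 := hd.gen (fun x y => (15 / (16 * q)) * E x y) (fun x => by simp only [hEself, mul_zero])
      (fun x y z => by
        have := mul_le_mul_of_nonneg_left (hEtri x y z) (by positivity : 0 ≤ 15 / (16 * q))
        linarith)
      (fun i hi x hx y hy => by
        by_cases hxy : x = y
        · subst hxy; simp only [hEself, mul_zero, hd.self, le_refl]
        · have h2 := (hround x y hxy i hi hx hy).2
          have h3 : E x y = |(H x : ℝ) - H y| := hbag i hi x hx y hy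
          rw [← h3] at h2
          have h4 := mul_le_mul_of_nonneg_left h2 (by positivity : 0 ≤ 15 / (16 * q))
          have h5 : 15 / (16 * q) * (16 / 15 * (q * d x y)) = d x y := by field_simp
          rw [h5] at h4
          exact h4)
    intro x y
    have h2 := mul_le_mul_of_nonneg_left (h1 x y) (by positivity : 0 ≤ 16 * q / 15)
    have h5 : 16 * q / 15 * (15 / (16 * q) * E x y) = E x y := by field_simp
    rw [h5] at h2
    linarith
  set t : ℝ := (7 * D * K) / ((14 / 15) * q) with ht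
  have ht0 : 0 ≤ t := by positivity
  refine embeds_of_cuts (fun j => t * w j) c (fun j => mul_nonneg ht0 (hw j)) ?_ ?_
  · intro x y
    have e : ∑ j, t * w j * (if c j x = c j y then (0 : ℝ) else 1) = t * E x y := by
      simp only [hE, Finset.mul_sum, mul_assoc]
    rw [e]
    have h1 := hlow x y
    have hE0 : 0 ≤ E x y := Finset.sum_nonneg (fun j _ => mul_nonneg (hw j) (by split_ifs <;> norm_num))
    have h2 : (14 / 15) * (q * d x y / D) ≤ 7 * K * E x y := by
      refine h1.trans (mul_le_mul_of_nonneg_right (by linarith) hE0)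
    have h3 : (14 / 15) * (q * d x y) ≤ 7 * D * K * E x y := by
      have h4 := mul_le_mul_of_nonneg_left h2 hD0.le
      have h5 : D * (14 / 15 * (q * d x y / D)) = (14 / 15) * (q * d x y) := by field_simp
      rw [h5] at h4
      linarith
    rw [ht, div_mul_eq_mul_div, le_div_iff₀ (by positivity)]
    linarith
  · intro x y
    have e : ∑ j, t * w j * (if c j x = c j y then (0 : ℝ) else 1) = t * E x y := by
      simp only [hE, Finset.mul_sum, mul_assoc]
    rw [e]
    have h1 := mul_le_mul_of_nonneg_left (hupper x y) ht0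
    refine h1.trans (le_of_eq ?_)
    rw [ht]
    field_simp
    ring



/-- **A common height on the tree.** -/
theorem height {V : Type} {d : V → V → ℝ} {N : ℕ} {p : ℕ → ℕ} {B : ℕ → Set V}
    (hpar : ∀ j, 0 < j → j ≤ N → p j < j)
    (hcov : ∀ x, ∃ i, i ≤ N ∧ x ∈ B i ∧ ∀ j, j ≤ N → x ∈ B j → j ≠ i → 0 < j ∧ x ∈ B (p j))
    (hline : ∀ i, i ≤ N → ∃ h : V → ℝ, ∀ x ∈ B i, ∀ y ∈ B i, d x y = |h x - h y|) :
    ∃ h : V → ℝ, ∀ i, i ≤ N → ∀ x ∈ B i, ∀ y ∈ B i, d x y = |h x - h y| := by
  classical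
  -- a vertex of an earlier bag and of the bag `n` lies in the bag `p n`
  have hup : ∀ x i n, i < n → n ≤ N → x ∈ B i → x ∈ B n → x ∈ B (p n) := by
    intro x i n hin hn hxi hxn
    obtain ⟨b, hb, hxb, hT⟩ := hcov x
    have hbi : ∀ j, j ≤ N → x ∈ B j → b ≤ j := by
      intro j
      induction j using Nat.strong_induction_on with
      | _ j ih =>
        intro hj hx
        by_cases h : j = b
        · exact h.ge
        · obtain ⟨h0, hx'⟩ := hT j hj hx h
          have h1 := hpar j h0 hj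
          exact (ih (p j) h1 (by omega) hx').trans h1.le
    have h1 := hbi i (by omega) hxi
    exact (hT n hn hxn (by omega)).2
  have key : ∀ n, n ≤ N → ∃ h : V → ℝ, ∀ i, i ≤ n → ∀ x ∈ B i, ∀ y ∈ B i,
      d x y = |h x - h y| := by
    intro n
    induction n with
    | zero =>
      intro h0
      obtain ⟨h, hh⟩ := hline 0 h0
      exact ⟨h, fun i hi => by obtain rfl : i = 0 := by omega
                               exact hh⟩
    | succ n ih =>
      intro hn
      obtain ⟨h, hh⟩ := ih (by omega)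
      obtain ⟨g, hg⟩ := hline (n + 1) hn
      have hpn : p (n + 1) ≤ n := by have := hpar (n + 1) (by omega) hn; omega
      obtain ⟨s, c, hs, hsc⟩ := rigid (B (p (n + 1)) ∩ B (n + 1)) g h (fun x hx y hy => by
        rw [← hg x hx.2 y hy.2, ← hh _ hpn x hx.1 y hy.1])
      refine ⟨fun x => if x ∈ B (n + 1) then s * g x + c else h x, ?_⟩
      intro i hi x hx y hy
      rcases Nat.lt_or_ge n i with h1 | h1
      · obtain rfl : i = n + 1 := by omega
        simp only [hx, hy, if_true]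
        rw [hg x hx y hy]
        have : s * g x + c - (s * g y + c) = s * (g x - g y) := by ring
        rw [this, abs_mul, hs, one_mul]
      · have e : ∀ z ∈ B i, (if z ∈ B (n + 1) then s * g z + c else h z) = h z := by
          intro z hz
          by_cases hz' : z ∈ B (n + 1)
          · rw [if_pos hz']
            exact (hsc z ⟨hup z i (n + 1) (by omega) hn hz hz', hz'⟩).symm
          · rw [if_neg hz']
        dsimp only
        rw [e x hx, e y hy]
        exact hh i h1 x hx y hy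
  exact key N le_rfl

/-- **Graphs, slopes.** -/
theorem graph_quasi {V : Type} {G : SimpleGraph V} {ℓ : Sym2 V → ℝ} [Finite V]
    (hc : G.Connected) (hℓ : ∀ e ∈ G.edgeSet, 0 < ℓ e) {N q : ℕ} {p lam : ℕ → ℕ}
    {B : ℕ → Set V} (hp : Paths N q p lam)
    (hcov : ∀ x, ∃ i, i ≤ N ∧ x ∈ B i ∧ ∀ j, j ≤ N → x ∈ B j → j ≠ i → 0 < j ∧ x ∈ B (p j))
    (hE : ∀ u v, G.Adj u v → ∃ i, i ≤ N ∧ u ∈ B i ∧ v ∈ B i)
    (h : V → ℝ) {D : ℝ} (hD : 1 ≤ D)
    (hh1 : ∀ i, i ≤ N → ∀ x ∈ B i, ∀ y ∈ B i, |h x - h y| ≤ pathDist G ℓ x y)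
    (hh2 : ∀ i, i ≤ N → ∀ x ∈ B i, ∀ y ∈ B i, pathDist G ℓ x y ≤ D * |h x - h y|)
    {f : ℕ → ℝ} (hf : Red.MStar f) (h1 : 1 ≤ f N) :
    EmbedsL1 (pathDist G ℓ) (32 * D * (q + 1) * f N) := by
  have hL : TreeLaw p (4 * (q + 1) * f N) N :=
    treeLaw hp (by linarith) (wordLaw_of_mStar hf N)
  have hq : (0 : ℝ) ≤ q := Nat.cast_nonneg q
  have h2 : (1 : ℝ) ≤ 4 * (q + 1) * f N := by nlinarith
  have h3 := bag_embeds_quasi (fun j h0 hj => (hp.step j h0 hj).1) hcov h hD hh1 hh2
    (pd_bagGen hc hℓ hE) h2 hL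
  have e : 8 * D * (4 * (q + 1) * f N) = 32 * D * (q + 1) * f N := by ring
  rwa [e] at h3

/-- **Graphs, bags isometric to subsets of the line.** -/
theorem graph_line {V : Type} {G : SimpleGraph V} {ℓ : Sym2 V → ℝ} [Finite V]
    (hc : G.Connected) (hℓ : ∀ e ∈ G.edgeSet, 0 < ℓ e) {N q : ℕ} {p lam : ℕ → ℕ}
    {B : ℕ → Set V} (hp : Paths N q p lam)
    (hcov : ∀ x, ∃ i, i ≤ N ∧ x ∈ B i ∧ ∀ j, j ≤ N → x ∈ B j → j ≠ i → 0 < j ∧ x ∈ B (p j))
    (hE : ∀ u v, G.Adj u v → ∃ i, i ≤ N ∧ u ∈ B i ∧ v ∈ B i)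
    (hline : ∀ i, i ≤ N → ∃ h : V → ℝ, ∀ x ∈ B i, ∀ y ∈ B i, pathDist G ℓ x y = |h x - h y|)
    {f : ℕ → ℝ} (hf : Red.MStar f) (h1 : 1 ≤ f N) :
    EmbedsL1 (pathDist G ℓ) (32 * (q + 1) * f N) := by
  obtain ⟨h, hh⟩ := height (fun j h0 hj => (hp.step j h0 hj).1) hcov hline
  have h3 := graph_quasi hc hℓ hp hcov hE h (le_refl (1 : ℝ))
    (fun i hi x hx y hy => (hh i hi x hx y hy).ge)
    (fun i hi x hx y hy => by rw [one_mul]; exact (hh i hi x hx y hy).le) hf h1
  rwa [mul_one] at h3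

end Vale.Agent.P235.H37T
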