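/-
P235, helper37.  Tree decompositions whose tree is a union of paths attached to paths, final form
from `MStarLL C`.
-/
import Vale.Agent.P235.R2.H37T.Defs
import Vale.Agent.P235.R2.H37T.Embed
import Vale.Agent.P235.R2.RED.Final

namespace Vale.Agent.P235.H37T

open Vale.Agent.P235.Red

/-- **Tree decompositions with line bags or slope bags, paths attached to paths `q` times.** -/
theorem TreeBags.embeds {C D : ℝ} (hC : 1 ≤ C) (hM : MStarLL C) {V : Type} [Finite V]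
    {G : SimpleGraph V} {ℓ : Sym2 V → ℝ} (hc : G.Connected) (hℓ : ∀ e ∈ G.edgeSet, 0 < ℓ e)
    (hD : 1 ≤ D) {N q : ℕ} (h : TreeBags G (pathDist G ℓ) D N q) :
    EmbedsL1 (pathDist G ℓ) (96 * C * D * (q + 1) * ((ll N : ℝ) + 1)) := by
  obtain ⟨B, p, lam, hT, hB⟩ := h
  have hp : Paths N q p lam := ⟨hT.level, hT.parent⟩
  have hll : (0 : ℝ) ≤ (ll N : ℝ) := Nat.cast_nonneg _
  have hq : (0 : ℝ) ≤ (q : ℝ) := Nat.cast_nonneg _
  have h1 : (1 : ℝ) ≤ C * ((ll N : ℝ) + 3) := by nlinarith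
  have hcov := hT.vertex
  have hbd : 32 * D * (q + 1) * (C * ((ll N : ℝ) + 3)) ≤
      96 * C * D * (q + 1) * ((ll N : ℝ) + 1) := by
    have h2 : 0 ≤ 32 * (C * D * ((q : ℝ) + 1)) := by positivity
    calc 32 * D * (q + 1) * (C * ((ll N : ℝ) + 3))
        = 32 * (C * D * ((q : ℝ) + 1)) * ((ll N : ℝ) + 3) := by ring
      _ ≤ 32 * (C * D * ((q : ℝ) + 1)) * (3 * ((ll N : ℝ) + 1)) :=
          mul_le_mul_of_nonneg_left (by linarith) h2
      _ = _ := by ring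
  have hup : ∀ {a : ℝ}, EmbedsL1 (pathDist G ℓ) a →
      a ≤ 96 * C * D * (q + 1) * ((ll N : ℝ) + 1) →
      EmbedsL1 (pathDist G ℓ) (96 * C * D * (q + 1) * ((ll N : ℝ) + 1)) := by
    rintro a ⟨Ω, m, μ, g, hg⟩ hab
    exact ⟨Ω, m, μ, g, fun x y => ⟨(hg x y).1, (hg x y).2.trans
      (mul_le_mul_of_nonneg_right hab (Red.pd_nonneg hℓ x y))⟩⟩
  rcases hB with hx | ⟨h, hx⟩
  · refine hup (graph_line hc hℓ hp hcov hT.edge hx hM h1) (le_trans ?_ hbd)
    have h3 : 0 ≤ 32 * ((q : ℝ) + 1) * (C * ((ll N : ℝ) + 3)) := by positivity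
    have h4 := le_mul_of_one_le_right h3 hD
    linarith
  · exact hup (graph_quasi hc hℓ hp hcov hT.edge h hD (fun i hi u hu v hv => (hx i hi u hu v hv).1)
      (fun i hi u hu v hv => (hx i hi u hu v hv).2) hM h1) hbd

end Vale.Agent.P235.H37T
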