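/-
P235, helper37.  Words on trees, part 5: the embedding is exact inside the bags (after helper598,
Exact.lean).
-/
import Vale.Agent.P235.R2.H37T.Embed
import Vale.Agent.P235.R2.H598.Exact

namespace Vale.Agent.P235.H37T

open Vale.Agent.P235 Vale.Agent.P235.R2.H598

theorem approx {V : Type} [Finite V] {G : SimpleGraph V} {d : V → V → ℝ} (hd : IsMet d)
    (hG : Gen G d) {N : ℕ} {p : ℕ → ℕ} {B : ℕ → Set V} (hpar : ∀ j, 0 < j → j ≤ N → p j < j)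
    (hcov : ∀ x, ∃ i, i ≤ N ∧ x ∈ B i ∧ ∀ j, j ≤ N → x ∈ B j → j ≠ i → 0 < j ∧ x ∈ B (p j))
    (hE : ∀ u v, G.Adj u v → ∃ i, i ≤ N ∧ u ∈ B i ∧ v ∈ B i)
    {h : V → ℝ} (hh : ∀ i, i ≤ N → ∀ x ∈ B i, ∀ y ∈ B i, d x y = |h x - h y|)
    {K : ℝ} (hK : 1 ≤ K) (hW : TreeLaw p K N) (k : ℕ) :
    ∃ F : V → V → ℝ, IsL1 F ∧ (∀ x y, F x y ≤ d x y) ∧
      ∀ x y, (1 - 1 / ((k : ℝ) + 1)) * lo d N B (4 * K + 3) x y ≤ F x y := by
  classical
  rcases isEmpty_or_nonempty V with hV | hV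
  · exact ⟨fun _ _ => 0, IsL1.zero, fun x => (hV.false x).elim, fun x => (hV.false x).elim⟩
  obtain ⟨δ, hδ, hδd⟩ := exists_min_dist hd
  obtain ⟨m, hm⟩ : ∃ m : ℝ, ∀ x, m ≤ h x := by
    obtain ⟨m, hm⟩ := (Set.finite_range h).bddBelow
    exact ⟨m, fun x => hm ⟨x, rfl⟩⟩
  set κ : ℝ := 1 / δ with hκ
  have hκ0 : 0 < κ := by positivity
  have hκδ : κ * δ = 1 := by rw [hκ]; field_simp
  have hk0 : (0 : ℝ) ≤ k := Nat.cast_nonneg k
  set Q : ℝ := 2 * κ * ((k : ℝ) + 1) with hQ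
  have hQκ : κ < Q := by rw [hQ]; nlinarith
  have hQ0 : 0 < Q := hκ0.trans hQκ
  have hpos : ∀ x, 0 ≤ Q * (h x - m) := fun x => mul_nonneg hQ0.le (by linarith [hm x])
  obtain ⟨M, hM1, hM2⟩ : ∃ M : ℕ, (∀ x, Q * (h x - m) ≤ M) ∧ ∀ x y, (Q - κ) * d x y ≤ M := by
    obtain ⟨a, ha⟩ := (Set.finite_range fun x => Q * (h x - m)).bddAbove
    obtain ⟨b, hb⟩ := (Set.finite_range fun z : V × V => (Q - κ) * d z.1 z.2).bddAbove
    obtain ⟨M, hM⟩ := exists_nat_ge (max a b)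
    exact ⟨M, fun x => (ha ⟨x, rfl⟩).trans ((le_max_left _ _).trans hM),
      fun x y => (hb ⟨(x, y), rfl⟩).trans ((le_max_right _ _).trans hM)⟩
  set H : V → ℕ := fun x => M + ⌊Q * (h x - m)⌋₊ with hH
  have hround : ∀ i, i ≤ N → ∀ x ∈ B i, ∀ y ∈ B i,
      (Q - κ) * d x y ≤ |(H x : ℝ) - H y| ∧ |(H x : ℝ) - H y| ≤ (Q + κ) * d x y := by
    intro i hi x hx y hy
    by_cases hxy : x = y
    · subst hxy
      rw [hd.self]; simp
    · have h1 := hδd x y hxy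
      have h2 := hh i hi x hx y hy
      have h4 : Q * (h x - m) - Q * (h y - m) = Q * (h x - h y) := by ring
      have h5 : 1 ≤ κ * d x y := by
        rw [← hκδ]; exact mul_le_mul_of_nonneg_left h1 hκ0.le
      have f1 := Nat.floor_le (hpos x)
      have f2 := Nat.lt_floor_add_one (Q * (h x - m))
      have f3 := Nat.floor_le (hpos y)
      have f4 := Nat.lt_floor_add_one (Q * (h y - m))
      have h3 : (H x : ℝ) - H y = (⌊Q * (h x - m)⌋₊ : ℝ) - (⌊Q * (h y - m)⌋₊ : ℝ) := by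
        simp only [hH]; push_cast; ring
      have h6 : |((⌊Q * (h x - m)⌋₊ : ℝ) - (⌊Q * (h y - m)⌋₊ : ℝ)) -
          (Q * (h x - m) - Q * (h y - m))| ≤ 1 := by
        rw [abs_le]; constructor <;> linarith
      have h7 : |Q * (h x - m) - Q * (h y - m)| = Q * d x y := by
        rw [h4, abs_mul, abs_of_pos hQ0, ← h2]
      rw [h3]
      have h8 := abs_sub_abs_le_abs_sub ((⌊Q * (h x - m)⌋₊ : ℝ) - (⌊Q * (h y - m)⌋₊ : ℝ))
        (Q * (h x - m) - Q * (h y - m))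
      have h9 := abs_sub_abs_le_abs_sub (Q * (h x - m) - Q * (h y - m))
        ((⌊Q * (h x - m)⌋₊ : ℝ) - (⌊Q * (h y - m)⌋₊ : ℝ))
      rw [abs_sub_comm (Q * (h x - m) - Q * (h y - m))
        ((⌊Q * (h x - m)⌋₊ : ℝ) - (⌊Q * (h y - m)⌋₊ : ℝ))] at h9
      rw [h7] at h8 h9
      constructor <;> linarith
  have hQκ0 : 0 ≤ Q - κ := by linarith
  have hmodel : TreeModel N p B H M (fun x y => (Q - κ) * d x y) := by
    refine ⟨hpar, hcov, fun x => Nat.le_add_right _ _, ?_, ?_, ?_, ?_, ?_⟩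
    · intro x
      have : ⌊Q * (h x - m)⌋₊ ≤ M := by
        have := Nat.floor_le_floor (hM1 x)
        rwa [Nat.floor_natCast] at this
      simp only [hH]; omega
    · intro x y z
      have h1 := mul_le_mul_of_nonneg_left (hd.tri x y z) hQκ0
      show (Q - κ) * d x z ≤ (Q - κ) * d x y + (Q - κ) * d y z
      linarith
    · intro x y
      simp only [hd.symm x y]
    · intro x y
      have h1 := hM2 x y
      have h3 : (0 : ℝ) ≤ M := Nat.cast_nonneg _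
      show (Q - κ) * d x y ≤ 2 * M
      linarith
    · intro i hi x hx y hy
      exact (hround i hi x hx y hy).1
  obtain ⟨ι, hι, w, c, hw, hbag, hlow⟩ := hmodel.main hK hW
  have hQκ' : 0 < Q + κ := by linarith
  have hE1 : IsL1 (fun x y => ∑ j, w j * (if c j x = c j y then (0 : ℝ) else 1)) :=
    ⟨ι, hι, w, c, hw, fun x y => rfl⟩
  have hFL := hE1.smul (show 0 ≤ 1 / (Q + κ) by positivity)
  refine ⟨_, hFL, ?_, ?_⟩
  · refine hFL.le_of_gen hG fun u v huv => ?_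
    obtain ⟨i, hi, hu, hv⟩ := hE u v huv
    have h4 := hbag i hi u hu v hv
    have h5 := (hround i hi u hu v hv).2
    show 1 / (Q + κ) * (∑ j, w j * (if c j u = c j v then (0 : ℝ) else 1)) ≤ d u v
    rw [h4, one_div, inv_mul_le_iff₀ hQκ']
    exact h5
  · intro x y
    show _ ≤ 1 / (Q + κ) * (∑ j, w j * (if c j x = c j y then (0 : ℝ) else 1))
    rw [one_div (Q + κ), le_inv_mul_iff₀ hQκ']
    have hk1 : (0 : ℝ) < (k : ℝ) + 1 := by linarith
    have e1 : (Q + κ) * (1 - 1 / ((k : ℝ) + 1)) ≤ Q - κ := by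
      have e2 : (Q + κ) * (1 - 1 / ((k : ℝ) + 1)) = Q - κ - κ * (1 / ((k : ℝ) + 1)) := by
        rw [hQ]; field_simp; ring
      have e3 : 0 ≤ κ * (1 / ((k : ℝ) + 1)) := by positivity
      linarith
    have hdn := hd.nonneg x y
    unfold lo
    split_ifs with hxy
    · obtain ⟨i, hi, hx, hy⟩ := hxy
      have h4 := (hround i hi x hx y hy).1
      have h5 := hbag i hi x hx y hy
      have h6 := mul_le_mul_of_nonneg_right e1 hdn
      rw [h5]
      linarith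
    · have hf1 : 0 < 4 * K + 3 := by linarith
      have h4 := hlow x y
      have h6 : (Q + κ) * (1 - 1 / ((k : ℝ) + 1)) * (d x y / (4 * K + 3)) ≤
          (Q - κ) * (d x y / (4 * K + 3)) := mul_le_mul_of_nonneg_right e1 (by positivity)
      have h7 : (Q - κ) * (d x y / (4 * K + 3)) ≤
          ∑ j, w j * (if c j x = c j y then (0 : ℝ) else 1) := by
        rw [← mul_div_assoc, div_le_iff₀ hf1]
        linarith
      linarith

/-- **Trees of bags, exact form.** -/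
theorem exact_tree {V : Type} [Finite V] {G : SimpleGraph V} {d : V → V → ℝ} (hd : IsMet d)
    (hG : Gen G d) {N : ℕ} {p : ℕ → ℕ} {B : ℕ → Set V} (hpar : ∀ j, 0 < j → j ≤ N → p j < j)
    (hcov : ∀ x, ∃ i, i ≤ N ∧ x ∈ B i ∧ ∀ j, j ≤ N → x ∈ B j → j ≠ i → 0 < j ∧ x ∈ B (p j))
    (hE : ∀ u v, G.Adj u v → ∃ i, i ≤ N ∧ u ∈ B i ∧ v ∈ B i)
    (hline : ∀ i, i ≤ N → ∃ h : V → ℝ, ∀ x ∈ B i, ∀ y ∈ B i, d x y = |h x - h y|)
    {K : ℝ} (hK : 1 ≤ K) (hW : TreeLaw p K N) :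
    ∃ F : V → V → ℝ, IsL1 F ∧ (∀ x y, F x y ≤ d x y) ∧
      (∀ x y, 1 / (4 * K + 3) * d x y ≤ F x y) ∧
      ∀ i, i ≤ N → ∀ x ∈ B i, ∀ y ∈ B i, F x y = d x y := by
  obtain ⟨h, hh⟩ := height hpar hcov hline
  obtain ⟨F, h1, h2, h3⟩ := isL1_limit (fun k => approx hd hG hpar hcov hE hh hK hW k)
  refine ⟨F, h1, h2, ?_, ?_⟩
  · intro x y
    refine le_trans ?_ (h3 x y)
    unfold lo
    have hd0 := hd.nonneg x y
    split_ifs
    · have h4 : 1 / (4 * K + 3) ≤ 1 := by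
        rw [div_le_one (by linarith)]; linarith
      calc 1 / (4 * K + 3) * d x y ≤ 1 * d x y := mul_le_mul_of_nonneg_right h4 hd0
        _ = _ := one_mul _
    · rw [one_div, inv_mul_eq_div]
  · intro i hi x hx y hy
    refine le_antisymm (h2 x y) ?_
    have h4 := h3 x y
    unfold lo at h4
    rw [if_pos ⟨i, hi, hx, hy⟩] at h4
    exact h4

/-- trees of bags give `Tight` -/
theorem tight_of_tree {f : ℕ → ℝ} (hf : Red.MStar f) {V : Type} [Finite V] {G : SimpleGraph V}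
    {d : V → V → ℝ} (hd : IsMet d) (hG : Gen G d) {N q : ℕ} {p lam : ℕ → ℕ} {B : ℕ → Set V}
    (hp : Paths N q p lam)
    (hcov : ∀ x, ∃ i, i ≤ N ∧ x ∈ B i ∧ ∀ j, j ≤ N → x ∈ B j → j ≠ i → 0 < j ∧ x ∈ B (p j))
    (hE : ∀ u v, G.Adj u v → ∃ i, i ≤ N ∧ u ∈ B i ∧ v ∈ B i)
    (hline : ∀ i, i ≤ N → ∃ h : V → ℝ, ∀ x ∈ B i, ∀ y ∈ B i, d x y = |h x - h y|)
    (h1 : 1 ≤ f N) : Tight G d (1 / (19 * (q + 1) * f N)) := by
  have hL : TreeLaw p (4 * (q + 1) * f N) N :=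
    treeLaw hp (by linarith) (VPRed.wordLaw_of_mStar hf N)
  have hq : (0 : ℝ) ≤ q := Nat.cast_nonneg q
  have h2 : (1 : ℝ) ≤ (q + 1) * f N := by nlinarith
  intro s t hst
  obtain ⟨F, g1, g2, g3, g4⟩ := exact_tree hd hG (fun j h0 hj => (hp.step j h0 hj).1) hcov hE
    hline (by linarith) hL
  obtain ⟨i, hi, hs, ht⟩ := hE s t hst
  refine ⟨F, g1, g4 i hi s hs t ht, fun x y => ?_, g2⟩
  refine le_trans (mul_le_mul_of_nonneg_right ?_ (hd.nonneg x y)) (g3 x y)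
  exact one_div_le_one_div_of_le (by nlinarith) (by nlinarith)

end Vale.Agent.P235.H37T
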