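/-
P235, helper37.  Words on trees, part 6: unlimited sums (after helper598, Fin6.lean).
-/
import Vale.Agent.P235.R2.H37T.Defs
import Vale.Agent.P235.R2.H37T.Exact
import Vale.Agent.P235.R2.H598.Fin6

namespace Vale.Agent.P235.H37T

open Vale.Agent.P235 Vale.Agent.P235.Red Vale.Agent.P235.R2.H598

/-- path decompositions are tree decompositions with `q = 0` -/
theorem treeDec_of_path {V : Type} {G : SimpleGraph V} {N : ℕ} {B : ℕ → Set V}
    (vertex : ∀ v, ∃ i, i ≤ N ∧ v ∈ B i)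
    (edge : ∀ u v, G.Adj u v → ∃ i, i ≤ N ∧ u ∈ B i ∧ v ∈ B i)
    (convex : ∀ i j k, i ≤ j → j ≤ k → k ≤ N → ∀ v, v ∈ B i → v ∈ B k → v ∈ B j) :
    TreeDec G N 0 (fun j => j - 1) (fun _ => 0) B := by
  classical
  refine ⟨fun v => ?_, edge, fun _ _ => le_rfl, fun j h0 _ => ⟨by omega, Or.inl ⟨rfl, rfl⟩⟩⟩
  obtain ⟨i, hi, hv⟩ := vertex v
  have hex : ∃ i, v ∈ B i := ⟨i, hv⟩
  have hb : Nat.find hex ≤ i := Nat.find_min' hex hv
  refine ⟨Nat.find hex, hb.trans hi, Nat.find_spec hex, fun j hj hvj hne => ?_⟩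
  have h1 : Nat.find hex ≤ j := Nat.find_min' hex hvj
  exact ⟨by omega, convex (Nat.find hex) (j - 1) j (by omega) (by omega) hj v
    (Nat.find_spec hex) hvj⟩

/-- a tight piece: as in `H598`, or a tree decomposition into line bags -/
def Leaf3 (n q : ℕ) (V : Type) (G : SimpleGraph V) (d : V → V → ℝ) : Prop :=
  Leaf2 n 0 V G d ∨ ∃ N, N ≤ n ∧ LineTree G d N q

theorem leaf3_tight : ∃ A : ℝ, 1 ≤ A ∧ ∀ (C : ℝ), 1 ≤ C → MStarLL C → ∀ (n q : ℕ) (V : Type)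
    [Finite V] (G : SimpleGraph V) (d : V → V → ℝ), Leaf3 n q V G d → IsMet d → Gen G d →
      Tight G d (1 / (A * (C * (q + 1) * ((ll n : ℝ) + 1)))) := by
  obtain ⟨A, hA, hT⟩ := leaf2_tight
  refine ⟨9 * A + 57, by linarith, fun C hC hM n q V _ G d h hd hG => ?_⟩
  have hn : (0 : ℝ) ≤ (ll n : ℝ) := Nat.cast_nonneg _
  have hq : (0 : ℝ) ≤ (q : ℝ) := Nat.cast_nonneg _
  have hX : 1 ≤ C * ((ll n : ℝ) + 1) := by nlinarith
  have hXq : C * ((ll n : ℝ) + 1) ≤ C * (q + 1) * ((ll n : ℝ) + 1) := by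
    have : 0 ≤ (q : ℝ) * (C * ((ll n : ℝ) + 1)) := by positivity
    nlinarith
  rcases h with h | ⟨N, hN, B, p, lam, hTD, hline⟩
  · refine (hT C hC hM n 0 V G d h hd hG).mono hd ?_
    refine one_div_le_one_div_of_le ?_ ?_
    · push_cast
      have : 0 < A * (9 * (C * ((ll n : ℝ) + 1))) := by positivity
      linarith
    · push_cast
      have h1 : 9 * A * (C * ((ll n : ℝ) + 1)) ≤ 9 * A * (C * (q + 1) * ((ll n : ℝ) + 1)) :=
        mul_le_mul_of_nonneg_left hXq (by linarith)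
      have h2 : 0 ≤ 57 * (C * (q + 1) * ((ll n : ℝ) + 1)) := by positivity
      linarith
  · have hN' : (ll N : ℝ) ≤ (ll n : ℝ) := by exact_mod_cast ll_mono hN
    have hN0 : (0 : ℝ) ≤ (ll N : ℝ) := Nat.cast_nonneg _
    have hf1 : 1 ≤ C * ((ll N : ℝ) + 3) := by nlinarith
    have hTt := tight_of_tree (f := fun N => C * ((ll N : ℝ) + 3)) hM hd hG
      ⟨hTD.level, hTD.parent⟩ hTD.vertex hTD.edge hline hf1
    refine hTt.mono hd ?_
    refine one_div_le_one_div_of_le (by positivity) ?_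
    have h1 : C * ((ll N : ℝ) + 3) ≤ C * (3 * ((ll n : ℝ) + 1)) :=
      mul_le_mul_of_nonneg_left (by linarith) (by linarith)
    have h2 : 19 * ((q : ℝ) + 1) * (C * ((ll N : ℝ) + 3)) ≤
        19 * ((q : ℝ) + 1) * (C * (3 * ((ll n : ℝ) + 1))) :=
      mul_le_mul_of_nonneg_left h1 (by positivity)
    have h3 : 0 ≤ 9 * A * (C * (q + 1) * ((ll n : ℝ) + 1)) := by positivity
    calc 19 * ((q : ℝ) + 1) * (C * ((ll N : ℝ) + 3))
        ≤ 19 * ((q : ℝ) + 1) * (C * (3 * ((ll n : ℝ) + 1))) := h2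
      _ = 57 * (C * (q + 1) * ((ll n : ℝ) + 1)) := by ring
      _ ≤ _ := by linarith

/-- **Unlimited sums, with trees of bags as pieces.** -/
theorem sums_tree : ∃ A : ℝ, 1 ≤ A ∧ ∀ (C : ℝ), 1 ≤ C → MStarLL C → ∀ (K : ℝ), 0 ≤ K →
    ∀ (n q : ℕ) (R : ∀ (V : Type), SimpleGraph V → (Sym2 V → ℝ) → Prop),
    (∀ (V : Type) [Finite V] (G : SimpleGraph V) (ℓ : Sym2 V → ℝ), G.Connected →
      (∀ e ∈ G.edgeSet, 0 < ℓ e) → R V G ℓ → EmbedsL1 (pathDist G ℓ) K) →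
    ∀ (V : Type) [Finite V] (G G' : SimpleGraph V) (ℓ : Sym2 V → ℝ), G.Connected →
      (∀ e ∈ G.edgeSet, 0 < ℓ e) → G ≤ G' →
      VSumOf (fun V G d => SumOf (Leaf3 n q) G d ∨
        ∃ ℓ : Sym2 V → ℝ, (∀ u v, G.Adj u v → ℓ s(u, v) = d u v) ∧ R V G ℓ) G' (pathDist G ℓ) →
      EmbedsL1 (pathDist G ℓ) (A * (C * (q + 1) * ((ll n : ℝ) + 1)) + K) := by
  obtain ⟨A, hA, hT⟩ := leaf3_tight
  refine ⟨29952000 * A, by linarith, fun C hC hM K hK n q R hR V _ G G' ℓ hc hℓ hle h => ?_⟩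
  have hn : (0 : ℝ) ≤ (ll n : ℝ) := Nat.cast_nonneg _
  have hq : (0 : ℝ) ≤ (q : ℝ) := Nat.cast_nonneg _
  have hX : 1 ≤ C * (q + 1) * ((ll n : ℝ) + 1) := by
    have h1 : 1 ≤ C * ((q : ℝ) + 1) := by nlinarith
    nlinarith
  have h1 : 1 ≤ A * (C * (q + 1) * ((ll n : ℝ) + 1)) := by nlinarith
  have hE := sums_general (c := 1 / (A * (C * (q + 1) * ((ll n : ℝ) + 1)))) (by positivity)
    (by rw [div_le_one (by linarith)]; exact h1) hK
    (fun V _ G d h hd hG => hT C hC hM n q V G d h hd hG) R hR V G G' ℓ hc hℓ hle h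
  obtain ⟨Ω, m, μ, f, hf⟩ := hE
  refine ⟨Ω, m, μ, f, fun x y => ⟨(hf x y).1, (hf x y).2.trans
    (mul_le_mul_of_nonneg_right ?_ (pd_nonneg hℓ x y))⟩⟩
  have e : 29952000 / (1 / (A * (C * (q + 1) * ((ll n : ℝ) + 1)))) =
      29952000 * (A * (C * (q + 1) * ((ll n : ℝ) + 1))) := by field_simp
  rw [e]
  exact le_of_eq (by ring)

end Vale.Agent.P235.H37T
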