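/-
P235 (helper37, after helper551): the classes of `H37T/Classes.lean` embed.
-/
import Vale.Agent.P235.R2.H37T.Classes
import Vale.Agent.P235.R2.H37T.Final
import Vale.Agent.P235.R2.H37T.Sums
import Vale.Agent.P235.R2.RED.SweptE

namespace Vale.Agent.P235.SwpT

open Vale.Agent.P235 Vale.Agent.P235.Red Vale.Agent.P235.R2 Vale.Agent.P235.H37T

variable {V : Type} {G : SimpleGraph V} {ℓ : Sym2 V → ℝ} {C D : ℝ}

theorem TreeBags.embeds (hC : 1 ≤ C) (hM : MStarLL C) [Finite V] (hc : G.Connected)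
    (hℓ : ∀ e ∈ G.edgeSet, 0 < ℓ e) (hD : 1 ≤ D) {N q : ℕ}
    (h : TreeBags G (pathDist G ℓ) D N q) :
    EmbedsL1 (pathDist G ℓ) (96 * C * D * (q + 1) * Swp.LL N) :=
  H37T.TreeBags.embeds hC hM hc hℓ hD h

theorem Tight.leaf3 {n q : ℕ} {V : Type} {G : SimpleGraph V} {d : V → V → ℝ}
    (h : Tight n q V G d) : Leaf3 n q V G d := by
  rcases h with h | h | h | h
  · exact Or.inr h
  · exact Or.inl (Or.inl (Or.inr h))
  · exact Or.inl (Or.inr (Or.inl h))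
  · exact Or.inl (Or.inr (Or.inr (Or.inl h)))

theorem EdgeSum.sumOf {n q : ℕ} {V : Type} {G : SimpleGraph V} {d : V → V → ℝ}
    (h : Swp.EdgeSum (Tight n q) G d) : H598.SumOf (Leaf3 n q) G d := by
  induction h with
  | base h => exact .base h.leaf3
  | glue h1 h2 h3 h4 _ _ ihA ihB => exact .glue h1 h2 h3 h4 ihA ihB

/-- the classes with a height function -/
def HPiece (n q : ℕ) (D : ℝ) (V : Type) (G : SimpleGraph V) (ℓ : Sym2 V → ℝ) : Prop :=
  (∃ N, N ≤ n ∧ TreeBags G (pathDist G ℓ) D N q) ∨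
      Nat.card V ≤ n ∧ Swp.TwoEnds G ℓ D Set.univ

theorem VertexSum.vSumOf {n q : ℕ} {V : Type} {G : SimpleGraph V} {d : V → V → ℝ}
    (h : Swp.VertexSum (Piece n q D) G d) :
    H598.VSumOf (fun V G d => H598.SumOf (Leaf3 n q) G d ∨
        ∃ ℓ : Sym2 V → ℝ, (∀ u v, G.Adj u v → ℓ s(u, v) = d u v) ∧ HPiece n q D V G ℓ) G d := by
  induction h with
  | base h =>
    rcases h with h | h
    · exact .base (Or.inl (EdgeSum.sumOf h))
    · exact .base (Or.inr h)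
  | glue h2 h3 h4 _ _ ihA ihB => exact .glue h2 h3 h4 ihA ihB

theorem HPiece.embeds (hC : 1 ≤ C) (hM : MStarLL C) {n q : ℕ} (hD : 1 ≤ D)
    (V : Type) [Finite V] (G : SimpleGraph V) (ℓ : Sym2 V → ℝ) (hc : G.Connected)
    (hℓ : ∀ e ∈ G.edgeSet, 0 < ℓ e) (h : HPiece n q D V G ℓ) :
    EmbedsL1 (pathDist G ℓ) (219073 * 288 * C * D * (q + 1) * Swp.LL n) := by
  have hCD : 0 ≤ C * D := by positivity
  have hq : (0 : ℝ) ≤ (q : ℝ) := Nat.cast_nonneg _
  rcases h with ⟨N, hN, h⟩ | ⟨hcard, h⟩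
  · refine Swp.up hℓ (TreeBags.embeds hC hM hc hℓ hD h) ?_
    have h1 := Swp.LL_mono hN
    have h2 := Swp.LL_nonneg n
    calc 96 * C * D * (q + 1) * Swp.LL N = 96 * (C * D * ((q : ℝ) + 1)) * Swp.LL N := by ring
      _ ≤ 219073 * 288 * (C * D * ((q : ℝ) + 1)) * Swp.LL n :=
        mul_le_mul (mul_le_mul_of_nonneg_right (by norm_num) (by positivity)) h1
          (Swp.LL_nonneg _) (by positivity)
      _ = _ := by ring
  · refine Swp.up hℓ (h.embeds_univ hC hM hc hℓ hD) ?_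
    have h1 : 219073 * 288 * C * D * Swp.LL (Nat.card V) ≤ 219073 * 288 * C * D * Swp.LL n :=
      mul_le_mul_of_nonneg_left (Swp.LL_mono hcard) (by positivity)
    have h2 : 0 ≤ 219073 * 288 * (C * D) * (q : ℝ) * Swp.LL n := by
      have := Swp.LL_nonneg n
      positivity
    nlinarith

/-- **unlimited sums** -/
theorem sums : ∃ A : ℝ, 1 ≤ A ∧ ∀ (C : ℝ), 1 ≤ C → MStarLL C → ∀ (D : ℝ), 1 ≤ D → ∀ (n q : ℕ)
    (V : Type) [Finite V] (G G' : SimpleGraph V) (ℓ : Sym2 V → ℝ), G.Connected →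
      (∀ e ∈ G.edgeSet, 0 < ℓ e) → G ≤ G' → Swp.VertexSum (Piece n q D) G' (pathDist G ℓ) →
      EmbedsL1 (pathDist G ℓ) (A * C * D * (q + 1) * Swp.LL n) := by
  obtain ⟨A, hA, h⟩ := sums_tree
  refine ⟨A + 219073 * 288, by linarith, fun C hC hM D hD n q V _ G G' ℓ hc hℓ hle hV => ?_⟩
  have hL := Swp.LL_nonneg n
  have hq : (0 : ℝ) ≤ (q : ℝ) := Nat.cast_nonneg _
  have hE := h C hC hM (219073 * 288 * C * D * (q + 1) * Swp.LL n) (by positivity) n q
    (HPiece n q D) (fun V _ G ℓ hc hℓ h => h.embeds hC hM hD V G ℓ hc hℓ) V G G' ℓ hc hℓ hle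
    (VertexSum.vSumOf hV)
  refine Swp.up hℓ hE ?_
  rw [← Swp.LL_eq]
  have h1 : 0 ≤ A * (C * (q + 1) * Swp.LL n) := by positivity
  have h2 := le_mul_of_one_le_right h1 hD
  calc A * (C * (q + 1) * Swp.LL n) + 219073 * 288 * C * D * (q + 1) * Swp.LL n
      ≤ A * (C * (q + 1) * Swp.LL n) * D + 219073 * 288 * C * D * (q + 1) * Swp.LL n := by
        linarith
    _ = _ := by ring

end Vale.Agent.P235.SwpT
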